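import Mathlib

/-!
# Area toolkit for row 211 (S0324–S0329), by helper57

`μHE[2]` (Lebesgue-normalised 2-dimensional Hausdorff measure) of parallelograms and triangles
in a real inner product space, via `LinearMap.euclideanHausdorffMeasure_image_eq_normDet_mul_volume`.
Everything lives in the namespace `Crest.Agent.S0324.Helper57`.
-/

set_option autoImplicit false
open MeasureTheory
open scoped ENNReal

namespace Crest.Agent.S0324.Helper57

section General

variable {E : Type*} [NormedAddCommGroup E] [InnerProductSpace ℝ E]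

/-- The linear map `ℝ² → E` sending `x` to `x 0 • a + x 1 • b`. -/
noncomputable def lin2 (a b : E) : EuclideanSpace ℝ (Fin 2) →ₗ[ℝ] E where
  toFun x := x 0 • a + x 1 • b
  map_add' x y := by simp [add_smul]; abel
  map_smul' c x := by simp [mul_smul, smul_add]

lemma lin2_apply (a b : E) (x : EuclideanSpace ℝ (Fin 2)) :
    lin2 a b x = x 0 • a + x 1 • b := rfl

/-- Gram determinant of two vectors. -/
noncomputable def gram2 (a b : E) : ℝ := ‖a‖ ^ 2 * ‖b‖ ^ 2 - (inner ℝ a b) ^ 2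

lemma gram2_nonneg (a b : E) : 0 ≤ gram2 a b := by
  unfold gram2
  have h := abs_real_inner_le_norm a b
  have h2 : (inner ℝ a b) ^ 2 ≤ (‖a‖ * ‖b‖) ^ 2 := by
    rw [← sq_abs (inner ℝ a b)]
    exact pow_le_pow_left₀ (abs_nonneg _) h 2
  nlinarith [h2]

lemma normDet_lin2 (a b : E) : (lin2 a b).normDet = Real.sqrt (gram2 a b) := by
  have h := LinearMap.normDet_sq_eq_det_gram (lin2 a b) (EuclideanSpace.basisFun (Fin 2) ℝ)
  rw [Matrix.det_fin_two] at h
  simp [Matrix.gram_apply, lin2_apply] at h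
  have h' : (lin2 a b).normDet ^ 2 = gram2 a b := by
    rw [h, gram2, real_inner_comm b a]; ring
  rw [← h', Real.sqrt_sq (LinearMap.normDet_nonneg _)]

end General

/-! ### Volumes of the unit square and the standard triangle in `ℝ²` -/

/-- The closed unit square in `ℝ²`. -/
def sq2 : Set (EuclideanSpace ℝ (Fin 2)) := {x | x 0 ∈ Set.Icc (0:ℝ) 1 ∧ x 1 ∈ Set.Icc (0:ℝ) 1}

/-- The closed standard triangle in `ℝ²`. -/
def tri2 : Set (EuclideanSpace ℝ (Fin 2)) := {x | 0 ≤ x 0 ∧ 0 ≤ x 1 ∧ x 0 + x 1 ≤ 1}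

/-- the point of `ℝ²` with coordinates `s`, `t` -/
noncomputable def pt2 (s t : ℝ) : EuclideanSpace ℝ (Fin 2) := !₂[s, t]

lemma pt2_zero (s t : ℝ) : pt2 s t 0 = s := by simp [pt2]
lemma pt2_one (s t : ℝ) : pt2 s t 1 = t := by simp [pt2]

/-- Transfer of volume from `EuclideanSpace ℝ (Fin 2)` to `ℝ × ℝ`. -/
lemma volume_eq_prod (S : Set (ℝ × ℝ)) :
    volume {x : EuclideanSpace ℝ (Fin 2) | (x 0, x 1) ∈ S} = (volume : Measure (ℝ × ℝ)) S := by
  have h1 := EuclideanSpace.volume_preserving_symm_measurableEquiv_toLp (Fin 2)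
  have h2 := volume_preserving_finTwoArrow ℝ
  have h3 : MeasurePreserving
      (⇑((MeasurableEquiv.toLp 2 (Fin 2 → ℝ)).symm.trans MeasurableEquiv.finTwoArrow))
      volume volume := h2.comp h1
  have h4 := h3.measure_preimage_equiv S
  rw [← h4]
  rfl

lemma volume_rect (a b c d : ℝ) :
    volume {x : EuclideanSpace ℝ (Fin 2) | x 0 ∈ Set.Icc a b ∧ x 1 ∈ Set.Icc c d}
      = ENNReal.ofReal (b - a) * ENNReal.ofReal (d - c) := by
  have := volume_eq_prod (Set.Icc a b ×ˢ Set.Icc c d)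
  simp only [Set.mem_prod] at this
  rw [this, Measure.volume_eq_prod, Measure.prod_prod, Real.volume_Icc, Real.volume_Icc]

lemma volume_rect_open (a b c d : ℝ) :
    volume {x : EuclideanSpace ℝ (Fin 2) | x 0 ∈ Set.Ioo a b ∧ x 1 ∈ Set.Ioo c d}
      = ENNReal.ofReal (b - a) * ENNReal.ofReal (d - c) := by
  have := volume_eq_prod (Set.Ioo a b ×ˢ Set.Ioo c d)
  simp only [Set.mem_prod] at this
  rw [this, Measure.volume_eq_prod, Measure.prod_prod, Real.volume_Ioo, Real.volume_Ioo]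

lemma volume_sq2 : volume sq2 = 1 := by
  unfold sq2
  rw [volume_rect]; simp

lemma volume_tri2 : volume tri2 = ENNReal.ofReal (1/2) := by
  have h := volume_eq_prod {p : ℝ × ℝ | 0 ≤ p.1 ∧ 0 ≤ p.2 ∧ p.1 + p.2 ≤ 1}
  have hS : MeasurableSet {p : ℝ × ℝ | 0 ≤ p.1 ∧ 0 ≤ p.2 ∧ p.1 + p.2 ≤ 1} := by
    apply IsClosed.measurableSet
    have e : {p : ℝ × ℝ | 0 ≤ p.1 ∧ 0 ≤ p.2 ∧ p.1 + p.2 ≤ 1}
        = {p | 0 ≤ p.1} ∩ ({p | 0 ≤ p.2} ∩ {p | p.1 + p.2 ≤ 1}) := by
      ext p; simp
    rw [e]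
    exact (isClosed_le continuous_const continuous_fst).inter
      ((isClosed_le continuous_const continuous_snd).inter
        (isClosed_le (continuous_fst.add continuous_snd) continuous_const))
  have e2 : tri2 = {x : EuclideanSpace ℝ (Fin 2) |
      (x 0, x 1) ∈ {p : ℝ × ℝ | 0 ≤ p.1 ∧ 0 ≤ p.2 ∧ p.1 + p.2 ≤ 1}} := rfl
  rw [e2, h, Measure.volume_eq_prod, Measure.prod_apply hS]
  have hslice : ∀ x : ℝ, volume (Prod.mk x ⁻¹' {p : ℝ × ℝ | 0 ≤ p.1 ∧ 0 ≤ p.2 ∧ p.1 + p.2 ≤ 1})
      = (Set.Icc (0:ℝ) 1).indicator (fun x => ENNReal.ofReal (1 - x)) x := by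
    intro x
    by_cases hx : x ∈ Set.Icc (0:ℝ) 1
    · rw [Set.indicator_of_mem hx]
      have : Prod.mk x ⁻¹' {p : ℝ × ℝ | 0 ≤ p.1 ∧ 0 ≤ p.2 ∧ p.1 + p.2 ≤ 1}
          = Set.Icc 0 (1 - x) := by
        ext t
        simp only [Set.mem_preimage, Set.mem_ofPred_eq, Set.mem_Icc]
        constructor
        · rintro ⟨_, h2, h3⟩; exact ⟨h2, by linarith⟩
        · rintro ⟨h2, h3⟩; exact ⟨hx.1, h2, by linarith⟩
      rw [this, Real.volume_Icc]; simp
    · rw [Set.indicator_of_notMem hx]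
      have : Prod.mk x ⁻¹' {p : ℝ × ℝ | 0 ≤ p.1 ∧ 0 ≤ p.2 ∧ p.1 + p.2 ≤ 1} = ∅ := by
        ext t
        simp only [Set.mem_preimage, Set.mem_ofPred_eq, Set.mem_empty_iff_false, iff_false]
        rintro ⟨h1, h2, h3⟩
        exact hx ⟨h1, by linarith⟩
      rw [this]; simp
  simp_rw [hslice]
  rw [lintegral_indicator measurableSet_Icc]
  rw [← ofReal_integral_eq_lintegral_ofReal]
  · congr 1
    rw [integral_Icc_eq_integral_Ioc, ← intervalIntegral.integral_of_le (by norm_num)]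
    rw [intervalIntegral.integral_sub (by simp) (by simp)]
    simp
    norm_num
  · exact (continuous_const.sub continuous_id).continuousOn.integrableOn_Icc
  · filter_upwards [ae_restrict_mem measurableSet_Icc] with x hx
    simp only [Pi.zero_apply]
    linarith [hx.2]

lemma convex_tri2 : Convex ℝ tri2 := by
  intro x hx y hy a b ha hb hab
  obtain ⟨hx0, hx1, hx2⟩ := hx
  obtain ⟨hy0, hy1, hy2⟩ := hy
  refine ⟨?_, ?_, ?_⟩
  · simp only [PiLp.add_apply, PiLp.smul_apply, smul_eq_mul]; positivity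
  · simp only [PiLp.add_apply, PiLp.smul_apply, smul_eq_mul]; positivity
  · simp only [PiLp.add_apply, PiLp.smul_apply, smul_eq_mul]
    nlinarith

/-! ### Parallelograms and triangles as images -/

section General

variable {E : Type*} [NormedAddCommGroup E] [InnerProductSpace ℝ E]

lemma parallelogram_eq (c a b : E) :
    {x : E | ∃ s ∈ Set.Icc (0:ℝ) 1, ∃ t ∈ Set.Icc (0:ℝ) 1, x = c + s • a + t • b}
      = (fun y => c + y) '' (lin2 a b '' sq2) := by
  ext x
  simp only [Set.mem_ofPred_eq, Set.mem_image, exists_exists_and_eq_and, lin2_apply]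
  constructor
  · rintro ⟨s, hs, t, ht, rfl⟩
    exact ⟨pt2 s t, ⟨by simpa [pt2_zero] using hs, by simpa [pt2_one] using ht⟩,
      by simp [add_assoc, pt2_zero, pt2_one]⟩
  · rintro ⟨y, ⟨h0, h1⟩, rfl⟩
    exact ⟨y 0, h0, y 1, h1, by simp [add_assoc]⟩

lemma triangle_eq (p q r : E) :
    convexHull ℝ {p, q, r} = (fun y => p + y) '' (lin2 (q - p) (r - p) '' tri2) := by
  apply Set.Subset.antisymm
  · apply convexHull_min
    · intro x hx
      simp only [Set.mem_insert_iff, Set.mem_singleton_iff] at hx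
      simp only [Set.mem_image, exists_exists_and_eq_and, lin2_apply]
      rcases hx with rfl | rfl | rfl
      · exact ⟨pt2 0 0, ⟨by simp [pt2_zero], by simp [pt2_one], by simp [pt2_zero, pt2_one]⟩,
          by simp [pt2_zero, pt2_one]⟩
      · exact ⟨pt2 1 0, ⟨by simp [pt2_zero], by simp [pt2_one], by simp [pt2_zero, pt2_one]⟩,
          by simp [pt2_zero, pt2_one]⟩
      · exact ⟨pt2 0 1, ⟨by simp [pt2_zero], by simp [pt2_one], by simp [pt2_zero, pt2_one]⟩,
          by simp [pt2_zero, pt2_one]⟩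
    · have h1 : Convex ℝ (lin2 (q - p) (r - p) '' tri2) := convex_tri2.linear_image _
      have h2 := h1.translate p
      convert h2 using 1
  · rintro x ⟨y, ⟨z, ⟨hz0, hz1, hz2⟩, rfl⟩, rfl⟩
    have hc := convex_convexHull ℝ ({p, q, r} : Set E)
    have hp : p ∈ convexHull ℝ ({p, q, r} : Set E) := subset_convexHull ℝ _ (by simp)
    have hq : q ∈ convexHull ℝ ({p, q, r} : Set E) := subset_convexHull ℝ _ (by simp)
    have hr : r ∈ convexHull ℝ ({p, q, r} : Set E) := subset_convexHull ℝ _ (by simp)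
    have key := hc.sum_mem (t := Finset.univ) (w := ![1 - z 0 - z 1, z 0, z 1]) (z := ![p, q, r])
      (by intro i _; fin_cases i <;> simp <;> linarith)
      (by simp [Fin.sum_univ_three]; ring)
      (by intro i _; fin_cases i <;> simp [hp, hq, hr])
    simp [Fin.sum_univ_three] at key
    convert key using 1
    simp only [lin2_apply]
    simp only [smul_sub, sub_smul, one_smul]
    abel

variable [MeasurableSpace E] [BorelSpace E]

/-- Area of the image of a planar set under `x ↦ x 0 • a + x 1 • b`. -/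
theorem area_lin2_image (a b : E) (s : Set (EuclideanSpace ℝ (Fin 2))) :
    μHE[2] (lin2 a b '' s) = ENNReal.ofReal (Real.sqrt (gram2 a b)) * volume s := by
  have h := LinearMap.euclideanHausdorffMeasure_image_eq_normDet_mul_volume (lin2 a b) s
  rw [finrank_euclideanSpace_fin, normDet_lin2] at h
  exact h

omit [InnerProductSpace ℝ E] in
/-- `μHE[d]` is translation invariant. -/
theorem area_vadd (d : ℕ) (c : E) (s : Set E) :
    μHE[d] ((fun y => c + y) '' s) = μHE[d] s :=
  Isometry.euclideanHausdorffMeasure_image (isometry_add_left c) s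

/-- **Area of a parallelogram** `c + [0,1] a + [0,1] b`. -/
theorem area_parallelogram (c a b : E) :
    μHE[2] {x : E | ∃ s ∈ Set.Icc (0:ℝ) 1, ∃ t ∈ Set.Icc (0:ℝ) 1, x = c + s • a + t • b}
      = ENNReal.ofReal (Real.sqrt (‖a‖ ^ 2 * ‖b‖ ^ 2 - (inner ℝ a b) ^ 2)) := by
  rw [parallelogram_eq, area_vadd, area_lin2_image, volume_sq2, mul_one, gram2]

/-- **Area of a triangle** with vertices `p`, `q`, `r`. -/
theorem area_triangle (p q r : E) :
    μHE[2] (convexHull ℝ {p, q, r})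
      = ENNReal.ofReal
          (Real.sqrt (‖q - p‖ ^ 2 * ‖r - p‖ ^ 2 - (inner ℝ (q - p) (r - p)) ^ 2) / 2) := by
  rw [triangle_eq, area_vadd, area_lin2_image, volume_tri2, gram2,
    ← ENNReal.ofReal_mul (Real.sqrt_nonneg _)]
  congr 1
  ring

end General

end Crest.Agent.S0324.Helper57
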