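import Mathlib
import Crest.Agent.Lib.S0324.Helper57Area

/-!
# Row 211 shared library: areas (`μHE[2]`) of triangles and parallelograms in `ℝ³`

Final version of the P1 interface (proofs via `Crest.Agent.S0324.Helper57`).
-/

set_option autoImplicit false
open MeasureTheory
open scoped ENNReal

namespace Crest.Agent.S0324

/-- Euclidean 3-space. -/
abbrev E3 : Type := EuclideanSpace ℝ (Fin 3)

/-- Gram determinant of two vectors: squared area of the parallelogram they span. -/
noncomputable def gram (a b : E3) : ℝ := ‖a‖ ^ 2 * ‖b‖ ^ 2 - (inner ℝ a b) ^ 2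

theorem gram_nonneg (a b : E3) : 0 ≤ gram a b := by
  unfold gram
  have h := abs_real_inner_le_norm a b
  have h2 : (inner ℝ a b) ^ 2 ≤ (‖a‖ * ‖b‖) ^ 2 := by
    rw [← sq_abs]; exact pow_le_pow_left₀ (abs_nonneg _) h 2
  nlinarith [h2]

/-- The standard regular tetrahedron of edge length 2 (the set in S0324/S0325). -/
noncomputable abbrev Kstd : Set E3 :=
  convexHull ℝ {!₂[1, 0, 0], !₂[-1, 0, 0], !₂[0, 1, Real.sqrt 2], !₂[0, -1, Real.sqrt 2]}

/-- P1: area of a triangle in `ℝ³` (degenerate triangles included: both sides are 0). -/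
theorem muHE_triangle (P Q R : E3) :
    μHE[2] (convexHull ℝ ({P, Q, R} : Set E3)) =
      ENNReal.ofReal (Real.sqrt (gram (Q - P) (R - P)) / 2) :=
  Helper57.area_triangle P Q R

/-- P1: area of a parallelogram in `ℝ³` (degenerate ones included). -/
theorem muHE_parallelogram (c a b : E3) :
    μHE[2] {x : E3 | ∃ s ∈ Set.Icc (0 : ℝ) 1, ∃ t ∈ Set.Icc (0 : ℝ) 1, x = c + s • a + t • b} =
      ENNReal.ofReal (Real.sqrt (gram a b)) :=
  Helper57.area_parallelogram c a b

/-- P1: on `ℝ³`, `μHE[2]` is a positive finite multiple of `μH[2]`. -/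
theorem muHE_eq_const_mul_muH :
    ∃ κ : ℝ, 0 < κ ∧ ∀ s : Set E3, μHE[2] s = ENNReal.ofReal κ * μH[(2 : ℝ)] s := by
  refine ⟨((Measure.addHaarScalarFactor (volume : Measure (EuclideanSpace ℝ (Fin 2)))
      (μH[((2 : ℕ) : ℝ)] : Measure (EuclideanSpace ℝ (Fin 2))) : NNReal) : ℝ), ?_, ?_⟩
  · have h := Measure.addHaarScalarFactor_volume_hausdorffMeasure_ne_zero 2
    exact NNReal.coe_pos.mpr (pos_iff_ne_zero.mpr h)
  · intro s
    rw [Measure.euclideanHausdorffMeasure_def, Measure.smul_apply]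
    simp [ENNReal.smul_def]

end Crest.Agent.S0324
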