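import Mathlib

/-!
# Row 211, package P3: real-variable lemmas for the explicit cover

`c = 1/1000`, `δ = 1/5000000` (`N = 5000000` pieces per half).
-/

set_option autoImplicit false

namespace Crest.Agent.S0324

/-- Discrete intermediate value theorem. -/
theorem exists_sign_change (f : ℕ → ℝ) :
    ∀ (N : ℕ), 1 ≤ N → 0 ≤ f 0 → f N ≤ 0 → ∃ i, i < N ∧ 0 ≤ f i ∧ f (i + 1) ≤ 0 := by
  intro N
  induction N with
  | zero => intro h; omega
  | succ n ih =>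
    intro _ h0 hN
    by_cases hn : 0 ≤ f n
    · exact ⟨n, Nat.lt_succ_self n, hn, hN⟩
    · have hn := lt_of_not_ge hn
      have hn1 : 1 ≤ n := by
        rcases Nat.eq_zero_or_pos n with h | h
        · subst h; linarith
        · exact h
      obtain ⟨i, hi, h1, h2⟩ := ih hn1 h0 hn.le
      exact ⟨i, Nat.lt_succ_of_lt hi, h1, h2⟩

/-- The interface function. -/
noncomputable def theta (x y : ℝ) : ℝ :=
  1 / 2 + (1 / 1000) * x * y + (1 / 1000) ^ 2 * (y ^ 2 - x ^ 2) * (y ^ 2 + 1 / 4)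

theorem theta_interface (x y t : ℝ) : t ≤ theta x y ∨ 1 - t ≤ theta y (-x) := by
  by_cases h : t ≤ theta x y
  · exact Or.inl h
  · right
    have h := lt_of_not_ge h
    have key : theta x y + theta y (-x) = 1 + (1 / 1000) ^ 2 * (x ^ 2 - y ^ 2) ^ 2 := by
      unfold theta; ring
    have : 0 ≤ (1 / 1000 : ℝ) ^ 2 * (x ^ 2 - y ^ 2) ^ 2 := by positivity
    linarith

theorem abs_mul_le_of (a b A B : ℝ) (ha : |a| ≤ A) (hb : |b| ≤ B) : |a * b| ≤ A * B := by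
  rw [abs_mul]
  exact mul_le_mul ha hb (abs_nonneg _) (le_trans (abs_nonneg _) ha)

/-- A priori bounds. -/
theorem top_bound_apriori (x y t m : ℝ) (hx0 : 0 ≤ x)
    (hm1 : -1 + 1 / 5000000 ≤ m) (hm2 : m ≤ 1 - 1 / 5000000)
    (hy : |y| ≤ t) (hx : |x| ≤ 1 - t)
    (ht : t ≤ 1 / 2 + (1 / 1000) * x * y + (1 / 1000) ^ 2 * (y ^ 2 - x ^ 2) * (y ^ 2 + 1 / 4))
    (hW1 : 0 ≤ y - (m - 1 / 5000000) * t - x * (1 / 1000) * (1 - (m - 1 / 5000000) ^ 2) / 4)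
    (hW2 : y - (m + 1 / 5000000) * t - x * (1 / 1000) * (1 - (m + 1 / 5000000) ^ 2) / 4 ≤ 0)
    (hcon : 1 / 2 < t - x * (1 / 1000) * m / 2) :
    x ≤ 1 / 2 + 1 / 2000 ∧ t ≤ 1 / 2 + 3 / 10000 ∧ |y - m / 2| ≤ 2 / 3000 := by
  have ht0 : 0 ≤ t := le_trans (abs_nonneg y) hy
  have hy2 : y ≤ t := (abs_le.mp hy).2
  have hx2 : x ≤ 1 - t := (abs_le.mp hx).2
  have ht1 : t ≤ 1 := by linarith
  have hmabs : |m| ≤ 1 := by rw [abs_le]; constructor <;> linarith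
  -- Step 1: t ≥ 1/2 - c/2
  have hxm : -1 ≤ x * m := by
    have h := abs_mul_le_of x m 1 1 (by rw [abs_le]; constructor <;> linarith) hmabs
    rw [abs_le] at h; linarith [h.1]
  have hta : 1 / 2 - 1 / 2000 ≤ t := by linarith
  have hxb : x ≤ 1 / 2 + 1 / 2000 := by linarith
  -- Step 3: t ≤ 1/2 + 0.3 c
  have hxy : x * y ≤ (1 / 2 + 1 / 2000) * t := by
    have h1 : x * y ≤ x * t := mul_le_mul_of_nonneg_left hy2 hx0
    have h2 : x * t ≤ (1 / 2 + 1 / 2000) * t := mul_le_mul_of_nonneg_right hxb ht0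
    linarith
  have hyy : y ^ 2 ≤ 1 := (sq_le_one_iff_abs_le_one y).mpr (le_trans hy ht1)
  have hzeta : (y ^ 2 - x ^ 2) * (y ^ 2 + 1 / 4) ≤ 5 / 4 := by
    have h1 : (y ^ 2 - x ^ 2) * (y ^ 2 + 1 / 4) ≤ y ^ 2 * (y ^ 2 + 1 / 4) := by
      apply mul_le_mul_of_nonneg_right _ (by positivity)
      linarith [sq_nonneg x]
    have h2 : y ^ 2 * (y ^ 2 + 1 / 4) ≤ 1 * (1 + 1 / 4) := by
      apply mul_le_mul hyy (by linarith) (by positivity) (by norm_num)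
    linarith
  have htb : t ≤ 1 / 2 + 3 / 10000 := by
    have h1 : (1 / 1000 : ℝ) ^ 2 * (y ^ 2 - x ^ 2) * (y ^ 2 + 1 / 4) ≤ (1 / 1000) ^ 2 * (5 / 4) := by
      rw [mul_assoc]; exact mul_le_mul_of_nonneg_left hzeta (by norm_num)
    linarith
  refine ⟨hxb, htb, ?_⟩
  -- Step 4: e = y - m/2 is small
  have hmt1 : |m * (t - 1 / 2)| ≤ 1 * (1 / 2000) :=
    abs_mul_le_of m (t - 1 / 2) 1 (1 / 2000) hmabs (by rw [abs_le]; constructor <;> linarith)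
  rw [abs_le] at hmt1
  have hsq1 : (m - 1 / 5000000) ^ 2 ≤ 1 :=
    (sq_le_one_iff_abs_le_one _).mpr (by rw [abs_le]; constructor <;> linarith)
  have hsq2 : (m + 1 / 5000000) ^ 2 ≤ 1 :=
    (sq_le_one_iff_abs_le_one _).mpr (by rw [abs_le]; constructor <;> linarith)
  rw [abs_le]
  constructor
  · have h3 : 0 ≤ x * (1 - (m - 1 / 5000000) ^ 2) := mul_nonneg hx0 (by linarith)
    linarith [hmt1.1]
  · have h3 : x * (1 - (m + 1 / 5000000) ^ 2) ≤ (1 / 2 + 1 / 2000) * 1 :=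
      mul_le_mul hxb (by linarith [sq_nonneg (m + 1 / 5000000)]) (by linarith) (by norm_num)
    linarith [hmt1.2]


/-- Main inequality (case `x ≥ 0`). -/
theorem top_bound_nonneg (x y t m : ℝ) (hx0 : 0 ≤ x)
    (hm1 : -1 + 1 / 5000000 ≤ m) (hm2 : m ≤ 1 - 1 / 5000000)
    (hy : |y| ≤ t) (hx : |x| ≤ 1 - t)
    (ht : t ≤ 1 / 2 + (1 / 1000) * x * y + (1 / 1000) ^ 2 * (y ^ 2 - x ^ 2) * (y ^ 2 + 1 / 4))
    (hW1 : 0 ≤ y - (m - 1 / 5000000) * t - x * (1 / 1000) * (1 - (m - 1 / 5000000) ^ 2) / 4)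
    (hW2 : y - (m + 1 / 5000000) * t - x * (1 / 1000) * (1 - (m + 1 / 5000000) ^ 2) / 4 ≤ 0) :
    t - x * (1 / 1000) * m / 2 ≤
      1 / 2 + (1 / 1000) ^ 2 * (m ^ 4 + m ^ 2) / 16 + (1 / 1000) ^ 3 +
        (1 / 1000) * (1 / 5000000) := by
  have hmabs : |m| ≤ 1 := by rw [abs_le]; constructor <;> linarith
  have hmm : m ^ 2 ≤ 1 := (sq_le_one_iff_abs_le_one m).mpr hmabs
  have hm20 : 0 ≤ m ^ 2 := sq_nonneg m
  have hm4 : m ^ 4 ≤ 1 := by
    have : m ^ 4 = m ^ 2 * m ^ 2 := by ring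
    rw [this]; exact mul_le_one₀ hmm hm20 hmm
  have hm40 : 0 ≤ m ^ 4 := by positivity
  by_contra hcon
  have hcon' := lt_of_not_ge hcon
  have hZ0 : 0 ≤ (1 / 1000 : ℝ) ^ 2 * (m ^ 4 + m ^ 2) / 16 := by positivity
  obtain ⟨hxb, htb, he⟩ := top_bound_apriori x y t m hx0 hm1 hm2 hy hx ht hW1 hW2 (by linarith)
  have ht0 : 0 ≤ t := le_trans (abs_nonneg y) hy
  have hyt : |y| ≤ 1 / 2 + 3 / 10000 := le_trans hy htb
  have hF1 : x * y ≤ x * ((m + 1 / 5000000) * t + x * (1 / 1000) * (1 - (m + 1 / 5000000) ^ 2) / 4) :=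
    mul_le_mul_of_nonneg_left (by linarith) hx0
  have hid : (1 / 2 + (1 / 1000) * (x * ((m + 1 / 5000000) * t + x * (1 / 1000) * (1 - (m + 1 / 5000000) ^ 2) / 4))
      + (1 / 1000) ^ 2 * (y ^ 2 - x ^ 2) * (y ^ 2 + 1 / 4)) - t =
      -(t - x * (1 / 1000) * m / 2 - 1 / 2) * (1 - (1 / 1000) * (x * (m + 1 / 5000000)))
      + (1 / 1000) * x * (1 / 5000000) / 2
      + (1 / 1000) ^ 2 * ((m ^ 4 + m ^ 2) / 16 +
        (y - m / 2) * (m + (y - m / 2)) * (y ^ 2 + m ^ 2 / 4 + 1 / 4 - x ^ 2))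
      - (1 / 1000) ^ 2 * x ^ 2 * (1 / 5000000) ^ 2 / 4 := by ring
  have hF4 : (y - m / 2) * (m + (y - m / 2)) * (y ^ 2 + m ^ 2 / 4 + 1 / 4 - x ^ 2) ≤ 5007 / 10000000 := by
    have hb : |m + (y - m / 2)| ≤ 1 + 2 / 3000 := le_trans (abs_add_le _ _) (add_le_add hmabs he)
    have hy2 : y ^ 2 ≤ (1 / 2 + 3 / 10000) ^ 2 := by
      rw [← sq_abs]; exact pow_le_pow_left₀ (abs_nonneg y) hyt 2
    have hx2 : x ^ 2 ≤ (1 / 2 + 1 / 2000) ^ 2 := pow_le_pow_left₀ hx0 hxb 2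
    have hc : |y ^ 2 + m ^ 2 / 4 + 1 / 4 - x ^ 2| ≤ 7504 / 10000 := by
      have hy0 := sq_nonneg y
      have hx0' := sq_nonneg x
      norm_num at hy2 hx2
      rw [abs_le]; constructor <;> linarith
    have h1 := abs_mul_le_of _ _ _ _ he hb
    have h2 := abs_mul_le_of _ _ _ _ h1 hc
    have h3 := le_trans (le_abs_self _) h2
    norm_num at h3 ⊢
    linarith
  have hu0 : 0 < t - x * (1 / 1000) * m / 2 - 1 / 2 := by linarith
  have hxm2 : x * (m + 1 / 5000000) ≤ (1 / 2 + 1 / 2000) * 1 := by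
    by_cases hneg : m + 1 / 5000000 ≤ 0
    · have : x * (m + 1 / 5000000) ≤ 0 := mul_nonpos_of_nonneg_of_nonpos hx0 hneg
      linarith
    · exact mul_le_mul hxb (by linarith) (by linarith) (by norm_num)
  have hF5 : (t - x * (1 / 1000) * m / 2 - 1 / 2) * (1 - (1 / 1000) * (1 / 2 + 1 / 2000)) ≤
      (t - x * (1 / 1000) * m / 2 - 1 / 2) * (1 - (1 / 1000) * (x * (m + 1 / 5000000))) := by
    apply mul_le_mul_of_nonneg_left _ hu0.le
    linarith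
  have hZ1 : (1 / 1000 : ℝ) ^ 2 * (m ^ 4 + m ^ 2) / 16 ≤ (1 / 1000) ^ 2 / 8 := by linarith
  have hxx : 0 ≤ (1 / 1000 : ℝ) ^ 2 * x ^ 2 * (1 / 5000000) ^ 2 / 4 := by positivity
  have hF1' := mul_le_mul_of_nonneg_left hF1 (show (0 : ℝ) ≤ 1 / 1000 by norm_num)
  have hF4' := mul_le_mul_of_nonneg_left hF4 (show (0 : ℝ) ≤ (1 / 1000) ^ 2 by norm_num)
  nlinarith [hid, hF5, hF1', hF4', hZ1, hxx, hcon', hxb, ht]


/-- Main inequality: the far side of piece `i` is not crossed below the interface. -/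
theorem top_bound (x y t m : ℝ)
    (hm1 : -1 + 1 / 5000000 ≤ m) (hm2 : m ≤ 1 - 1 / 5000000)
    (hy : |y| ≤ t) (hx : |x| ≤ 1 - t)
    (ht : t ≤ 1 / 2 + (1 / 1000) * x * y + (1 / 1000) ^ 2 * (y ^ 2 - x ^ 2) * (y ^ 2 + 1 / 4))
    (hW1 : 0 ≤ y - (m - 1 / 5000000) * t - x * (1 / 1000) * (1 - (m - 1 / 5000000) ^ 2) / 4)
    (hW2 : y - (m + 1 / 5000000) * t - x * (1 / 1000) * (1 - (m + 1 / 5000000) ^ 2) / 4 ≤ 0) :
    t - x * (1 / 1000) * m / 2 ≤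
      1 / 2 + (1 / 1000) ^ 2 * (m ^ 4 + m ^ 2) / 16 + (1 / 1000) ^ 3 +
        (1 / 1000) * (1 / 5000000) := by
  rcases le_total 0 x with hx0 | hx0
  · exact top_bound_nonneg x y t m hx0 hm1 hm2 hy hx ht hW1 hW2
  · have key := top_bound_nonneg (-x) (-y) t (-m) (by linarith) (by linarith) (by linarith)
      (by rw [abs_neg]; exact hy) (by rw [abs_neg]; exact hx)
      (by
        have e : (1 / 2 + (1 / 1000) * (-x) * (-y) + (1 / 1000) ^ 2 * ((-y) ^ 2 - (-x) ^ 2) * ((-y) ^ 2 + 1 / 4) : ℝ)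
            = 1 / 2 + (1 / 1000) * x * y + (1 / 1000) ^ 2 * (y ^ 2 - x ^ 2) * (y ^ 2 + 1 / 4) := by ring
        rw [e]; exact ht)
      (by
        have e : (-y - (-m - 1 / 5000000) * t - -x * (1 / 1000) * (1 - (-m - 1 / 5000000) ^ 2) / 4 : ℝ)
            = -(y - (m + 1 / 5000000) * t - x * (1 / 1000) * (1 - (m + 1 / 5000000) ^ 2) / 4) := by ring
        rw [e]; linarith)
      (by
        have e : (-y - (-m + 1 / 5000000) * t - -x * (1 / 1000) * (1 - (-m + 1 / 5000000) ^ 2) / 4 : ℝ)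
            = -(y - (m - 1 / 5000000) * t - x * (1 / 1000) * (1 - (m - 1 / 5000000) ^ 2) / 4) := by ring
        rw [e]; linarith)
    have e : (t - -x * (1 / 1000) * -m / 2 : ℝ) = t - x * (1 / 1000) * m / 2 := by ring
    have e2 : ((-m) ^ 4 + (-m) ^ 2 : ℝ) = m ^ 4 + m ^ 2 := by ring
    rw [e, e2] at key
    exact key

end Crest.Agent.S0324
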