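import Mathlib

/-!
# Row 211 / P3 (cover of the standard tetrahedron): the cost sum of one family of cylinders

Pure real-number estimate.  With `N = 5000000`, `c = 1/1000`, `τ_j = -1 + 2 j / N`,
`m_i = (τ_i + τ_{i+1}) / 2`, `r_i = c² (m_i⁴ + m_i²) / 16 + c³ + c / N` and
`|axis_i|² = 1 + c² (1 + τ_i τ_{i+1})² / 16 + c² m_i² / 2` we show

  `∑_{i < N} (1/2 + r_i)² / (N |axis_i|) ≤ 1/4 - 1/(2·10⁹)`.
-/

set_option autoImplicit false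

namespace Crest.Agent.S0324.Helper65

/-- the constant `c = 1/1000` -/
noncomputable def cc : ℝ := 1 / 1000

/-- slopes `τ_j = -1 + 2 j / N`, `N = 5·10⁶` -/
noncomputable def tau (j : ℕ) : ℝ := -1 + 2 * (j : ℝ) / 5000000

/-- mid slopes `m_i = (τ_i + τ_{i+1}) / 2` -/
noncomputable def mid (i : ℕ) : ℝ := (tau i + tau (i + 1)) / 2

/-- the excess `r_i` of the far side: the far side of piece `i` is at `t = 1/2 + r_i` -/
noncomputable def rad (i : ℕ) : ℝ :=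
  cc ^ 2 * (mid i ^ 4 + mid i ^ 2) / 16 + cc ^ 3 + cc / 5000000

/-- squared length of the axis `(1, c (1 + τ_i τ_{i+1}) / 4, √2 c m_i / 2)` -/
noncomputable def axisSq (i : ℕ) : ℝ :=
  1 + cc ^ 2 * (1 + tau i * tau (i + 1)) ^ 2 / 16 + cc ^ 2 * mid i ^ 2 / 2

theorem mid_eq (i : ℕ) : mid i = (2 * (i : ℝ) + 1 - 5000000) / 5000000 := by
  unfold mid tau; push_cast; ring

theorem tau_mul (i : ℕ) : tau i * tau (i + 1) = mid i ^ 2 - 1 / 5000000 ^ 2 := by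
  unfold mid tau; push_cast; ring

theorem mid_sq_le (i : ℕ) (hi : i < 5000000) : mid i ^ 2 ≤ 1 := by
  rw [mid_eq]
  have h1 : (i : ℝ) ≤ 4999999 := by
    have : i ≤ 4999999 := by omega
    exact_mod_cast this
  have h0 : (0 : ℝ) ≤ i := Nat.cast_nonneg i
  rw [div_pow, div_le_one (by norm_num)]
  nlinarith

theorem inv_sqrt_le (s : ℝ) (hs : 0 ≤ s) (hs1 : s ≤ 1) :
    1 / Real.sqrt (1 + s) ≤ 1 - s / 2 + 3 * s ^ 2 / 8 := by
  have hq : 0 < 1 - s / 2 + 3 * s ^ 2 / 8 := by nlinarith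
  have hpos : 0 < Real.sqrt (1 + s) := Real.sqrt_pos.mpr (by linarith)
  rw [div_le_iff₀ hpos]
  have h2 : 1 ≤ (1 - s / 2 + 3 * s ^ 2 / 8) ^ 2 * (1 + s) := by
    have e : (1 - s / 2 + 3 * s ^ 2 / 8) ^ 2 * (1 + s) - 1
        = s ^ 3 * (5 / 8 - 15 * s / 64 + 9 * s ^ 2 / 64) := by ring
    have h3 : 0 ≤ s ^ 3 * (5 / 8 - 15 * s / 64 + 9 * s ^ 2 / 64) := by
      apply mul_nonneg (by positivity)
      nlinarith
    linarith
  have h4 : Real.sqrt ((1 - s / 2 + 3 * s ^ 2 / 8) ^ 2 * (1 + s))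
      = (1 - s / 2 + 3 * s ^ 2 / 8) * Real.sqrt (1 + s) := by
    rw [Real.sqrt_mul (sq_nonneg _), Real.sqrt_sq hq.le]
  rw [← h4]
  rw [Real.le_sqrt' (by norm_num)]
  simpa using h2

theorem core_ineq (r s : ℝ) (hr0 : 0 ≤ r) (hr1 : r ≤ 127 / 10 ^ 9) (hs0 : 0 ≤ s)
    (hs1 : s ≤ 75 / 10 ^ 8) :
    (1 / 2 + r) ^ 2 * (1 - s / 2 + 3 * s ^ 2 / 8) ≤ 1 / 4 + r - s / 8 + 1 / 10 ^ 12 := by
  have h1 : r ^ 2 ≤ (127 / 10 ^ 9) ^ 2 := pow_le_pow_left₀ hr0 hr1 2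
  have h2 : s ^ 2 ≤ (75 / 10 ^ 8) ^ 2 := pow_le_pow_left₀ hs0 hs1 2
  have h3 : 0 ≤ r * s := mul_nonneg hr0 hs0
  have h4 : 0 ≤ r ^ 2 * s := mul_nonneg (sq_nonneg r) hs0
  have h5 : (1 / 2 + r) ^ 2 ≤ 1 := by nlinarith
  have h6 : s ^ 2 * (1 / 2 + r) ^ 2 ≤ (75 / 10 ^ 8) ^ 2 * 1 :=
    mul_le_mul h2 h5 (sq_nonneg _) (by positivity)
  have e : (1 / 2 + r) ^ 2 * (1 - s / 2 + 3 * s ^ 2 / 8)
      = 1 / 4 + r - s / 8 + (r ^ 2 - r * s / 2 - r ^ 2 * s / 2 + 3 / 8 * (s ^ 2 * (1 / 2 + r) ^ 2)) := by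
    ring
  rw [e]
  norm_num at h1 h2 h6 ⊢
  linarith

/-- the per-piece bound -/
theorem term_le (i : ℕ) (hi : i < 5000000) :
    (1 / 2 + rad i) ^ 2 / (5000000 * Real.sqrt (axisSq i)) ≤
      1 / 5000000 * (1 / 4 + cc ^ 2 * (7 * mid i ^ 4 / 128 - mid i ^ 2 / 64 - 1 / 128
        + 1 / 5000000 ^ 2 / 32) + cc ^ 3 + cc / 5000000 + 1 / 10 ^ 12) := by
  have hm : mid i ^ 2 ≤ 1 := mid_sq_le i hi
  have hm0 : 0 ≤ mid i ^ 2 := sq_nonneg _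
  have hm4 : mid i ^ 4 ≤ 1 := by
    have : mid i ^ 4 = (mid i ^ 2) ^ 2 := by ring
    rw [this]; nlinarith
  have hm40 : 0 ≤ mid i ^ 4 := by positivity
  set m := mid i with hmdef
  set s : ℝ := cc ^ 2 * ((1 + m ^ 2 - 1 / 5000000 ^ 2) ^ 2 / 16 + m ^ 2 / 2) with hs
  have hax : axisSq i = 1 + s := by
    unfold axisSq; rw [tau_mul]; rw [hs]; ring
  have hcc : cc = 1 / 1000 := rfl
  have hs0 : 0 ≤ s := by rw [hs, hcc]; positivity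
  have hsq4 : (1 + m ^ 2 - 1 / 5000000 ^ 2) ^ 2 ≤ 4 := by
    have ha : 0 ≤ 1 + m ^ 2 - 1 / 5000000 ^ 2 := by norm_num; linarith
    have hb : 1 + m ^ 2 - 1 / 5000000 ^ 2 ≤ 2 := by norm_num; linarith
    nlinarith
  have hs1 : s ≤ 75 / 10 ^ 8 := by
    rw [hs, hcc]; norm_num; linarith
  have hr0 : 0 ≤ rad i := by unfold rad; rw [hcc]; positivity
  have hr1 : rad i ≤ 127 / 10 ^ 9 := by
    unfold rad; rw [hcc]; norm_num; linarith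
  have hsqrt : 1 / Real.sqrt (1 + s) ≤ 1 - s / 2 + 3 * s ^ 2 / 8 :=
    inv_sqrt_le s hs0 (by norm_num at hs1 ⊢; linarith)
  have hcore := core_ineq (rad i) s hr0 hr1 hs0 hs1
  have hrs : rad i - s / 8 ≤ cc ^ 2 * (7 * m ^ 4 / 128 - m ^ 2 / 64 - 1 / 128
        + 1 / 5000000 ^ 2 / 32) + cc ^ 3 + cc / 5000000 := by
    have hexp : (1 + m ^ 2) ^ 2 - 4 * (1 / 5000000 ^ 2) ≤ (1 + m ^ 2 - 1 / 5000000 ^ 2) ^ 2 := by
      have : (1 + m ^ 2 - 1 / 5000000 ^ 2) ^ 2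
          = (1 + m ^ 2) ^ 2 - 2 * (1 / 5000000 ^ 2) * (1 + m ^ 2) + (1 / 5000000 ^ 2) ^ 2 := by ring
      rw [this]
      have : (0:ℝ) ≤ (1 / 5000000 ^ 2) ^ 2 := by positivity
      have h2 : 2 * (1 / 5000000 ^ 2 : ℝ) * (1 + m ^ 2) ≤ 4 * (1 / 5000000 ^ 2) := by
        have : (0:ℝ) ≤ 1 / 5000000 ^ 2 := by positivity
        nlinarith
      linarith
    have hc2 : (0:ℝ) ≤ cc ^ 2 := by positivity
    have e : rad i - s / 8 = cc ^ 2 * (m ^ 4 / 16 - (1 + m ^ 2 - 1 / 5000000 ^ 2) ^ 2 / 128)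
        + cc ^ 3 + cc / 5000000 := by
      unfold rad; rw [hs]; ring
    rw [e]
    have : m ^ 4 / 16 - (1 + m ^ 2 - 1 / 5000000 ^ 2) ^ 2 / 128 ≤
        7 * m ^ 4 / 128 - m ^ 2 / 64 - 1 / 128 + 1 / 5000000 ^ 2 / 32 := by
      have : (1 + m ^ 2) ^ 2 = 1 + 2 * m ^ 2 + m ^ 4 := by ring
      linarith
    have := mul_le_mul_of_nonneg_left this hc2
    linarith
  have hpos : 0 < Real.sqrt (1 + s) := Real.sqrt_pos.mpr (by linarith)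
  rw [hax]
  have e1 : (1 / 2 + rad i) ^ 2 / (5000000 * Real.sqrt (1 + s))
      = 1 / 5000000 * ((1 / 2 + rad i) ^ 2 * (1 / Real.sqrt (1 + s))) := by
    field_simp
  rw [e1]
  apply mul_le_mul_of_nonneg_left _ (by norm_num)
  calc (1 / 2 + rad i) ^ 2 * (1 / Real.sqrt (1 + s))
      ≤ (1 / 2 + rad i) ^ 2 * (1 - s / 2 + 3 * s ^ 2 / 8) :=
        mul_le_mul_of_nonneg_left hsqrt (sq_nonneg _)
    _ ≤ 1 / 4 + rad i - s / 8 + 1 / 10 ^ 12 := hcore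
    _ ≤ _ := by linarith

theorem sum_mid_sq (n : ℕ) :
    ∑ i ∈ Finset.range n, mid i ^ 2 =
      (((2 * (n : ℝ) - 5000000) ^ 3 / 6 - (2 * (n : ℝ) - 5000000) / 6)
        - ((-5000000 : ℝ) ^ 3 / 6 - (-5000000 : ℝ) / 6)) / 5000000 ^ 2 := by
  induction n with
  | zero => simp
  | succ n ih =>
    rw [Finset.sum_range_succ, ih, mid_eq]
    push_cast
    ring

theorem sum_mid_four (n : ℕ) :
    ∑ i ∈ Finset.range n, mid i ^ 4 =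
      (((2 * (n : ℝ) - 5000000) ^ 5 / 10 - (2 * (n : ℝ) - 5000000) ^ 3 / 3
          + 7 * (2 * (n : ℝ) - 5000000) / 30)
        - ((-5000000 : ℝ) ^ 5 / 10 - (-5000000 : ℝ) ^ 3 / 3 + 7 * (-5000000 : ℝ) / 30))
        / 5000000 ^ 4 := by
  induction n with
  | zero => simp
  | succ n ih =>
    rw [Finset.sum_range_succ, ih, mid_eq]
    push_cast
    ring

/-- **Cost of one family**: `∑_{i<N} (1/2 + r_i)² / (N |axis_i|) ≤ 1/4 - 1/(2·10⁹)`. -/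
theorem cost_half :
    ∑ i ∈ Finset.range 5000000, (1 / 2 + rad i) ^ 2 / (5000000 * Real.sqrt (axisSq i)) ≤
      1 / 4 - 1 / (2 * 10 ^ 9) := by
  have h1 : ∑ i ∈ Finset.range 5000000, (1 / 2 + rad i) ^ 2 / (5000000 * Real.sqrt (axisSq i)) ≤
      ∑ i ∈ Finset.range 5000000, 1 / 5000000 * (1 / 4 + cc ^ 2 * (7 * mid i ^ 4 / 128
        - mid i ^ 2 / 64 - 1 / 128 + 1 / 5000000 ^ 2 / 32) + cc ^ 3 + cc / 5000000 + 1 / 10 ^ 12) :=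
    Finset.sum_le_sum fun i hi => term_le i (Finset.mem_range.mp hi)
  have h2 : ∑ i ∈ Finset.range 5000000, 1 / 5000000 * (1 / 4 + cc ^ 2 * (7 * mid i ^ 4 / 128
        - mid i ^ 2 / 64 - 1 / 128 + 1 / 5000000 ^ 2 / 32) + cc ^ 3 + cc / 5000000 + 1 / 10 ^ 12)
      = 1 / 5000000 * (cc ^ 2 * 7 / 128) * ∑ i ∈ Finset.range 5000000, mid i ^ 4
        - 1 / 5000000 * (cc ^ 2 / 64) * ∑ i ∈ Finset.range 5000000, mid i ^ 2
        + (1 / 4 + cc ^ 2 * (- 1 / 128 + 1 / 5000000 ^ 2 / 32) + cc ^ 3 + cc / 5000000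
            + 1 / 10 ^ 12) := by
    rw [Finset.mul_sum, Finset.mul_sum, ← Finset.sum_sub_distrib]
    have : (1 / 4 + cc ^ 2 * (- 1 / 128 + 1 / 5000000 ^ 2 / 32) + cc ^ 3 + cc / 5000000
            + 1 / 10 ^ 12 : ℝ) = ∑ _i ∈ Finset.range 5000000, 1 / 5000000 * (1 / 4 + cc ^ 2 * (- 1 / 128 + 1 / 5000000 ^ 2 / 32) + cc ^ 3 + cc / 5000000
            + 1 / 10 ^ 12 : ℝ) := by
      rw [Finset.sum_const, Finset.card_range]; simp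
    rw [this, ← Finset.sum_add_distrib]
    apply Finset.sum_congr rfl
    intro i _
    ring
  rw [h2] at h1
  rw [sum_mid_four, sum_mid_sq] at h1
  have hcc : cc = 1 / 1000 := rfl
  rw [hcc] at h1
  norm_num at h1 ⊢
  linarith

end Crest.Agent.S0324.Helper65
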