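import Mathlib
import Crest.Agent.Lib.S0324.Area
import Crest.Agent.Lib.S0324.Helper65Cost

/-!
# Row 211 / P3: 3-D glue for the explicit cover of the standard tetrahedron

`core_cover_of_pure` reduces the interface statement `core_cover` to a pure real-number
covering statement about the pieces `InPiece`.
-/

set_option autoImplicit false

namespace Crest.Agent.S0324.Helper65

open Crest.Agent.S0324

/-! ### coordinates in `E3` -/

theorem inner_coord (v w : E3) : inner ℝ v w = v 0 * w 0 + v 1 * w 1 + v 2 * w 2 := by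
  simp [PiLp.inner_apply, Fin.sum_univ_three]
  ring

theorem norm_sq_coord (v : E3) : ‖v‖ ^ 2 = v 0 ^ 2 + v 1 ^ 2 + v 2 ^ 2 := by
  rw [← real_inner_self_eq_norm_sq, inner_coord]; ring

theorem ext3 (v w : E3) (h0 : v 0 = w 0) (h1 : v 1 = w 1) (h2 : v 2 = w 2) : v = w := by
  ext i; fin_cases i <;> simp [h0, h1, h2]

/-! ### projection along a unit vector -/

/-- orthogonal projection onto `u^⊥` (for unit `u`) -/
noncomputable def proj (u v : E3) : E3 := v - inner ℝ v u • u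

theorem proj_sub (u v w : E3) : proj u v - proj u w = proj u (v - w) := by
  unfold proj; rw [inner_sub_left, sub_smul]; abel

theorem proj_add (u v w : E3) : proj u (v + w) = proj u v + proj u w := by
  unfold proj; rw [inner_add_left, add_smul]; abel

theorem proj_smul (u : E3) (c : ℝ) (v : E3) : proj u (c • v) = c • proj u v := by
  unfold proj; rw [inner_smul_left, smul_sub, smul_smul]; simp

theorem inner_proj (u v : E3) (hu : ‖u‖ = 1) : inner ℝ (proj u v) u = 0 := by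
  unfold proj; rw [inner_sub_left, inner_smul_left, real_inner_self_eq_norm_sq, hu]; simp

/-- the `3 × 3` determinant with rows `a`, `b`, `u` -/
def det3 (a b u : E3) : ℝ :=
  u 0 * (a 1 * b 2 - a 2 * b 1) + u 1 * (a 2 * b 0 - a 0 * b 2) + u 2 * (a 0 * b 1 - a 1 * b 0)

theorem det3_smul (a b u : E3) (c : ℝ) : det3 a b (c • u) = c * det3 a b u := by
  unfold det3; simp; ring

/-- area of a projected parallelogram: `gram (π a) (π b) = det(a, b, u)²` for unit `u`. -/
theorem gram_proj (u a b : E3) (hu : ‖u‖ = 1) : gram (proj u a) (proj u b) = (det3 a b u) ^ 2 := by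
  have hu2 : u 0 ^ 2 + u 1 ^ 2 + u 2 ^ 2 = 1 := by rw [← norm_sq_coord, hu]; norm_num
  unfold gram
  rw [norm_sq_coord, norm_sq_coord, inner_coord]
  simp only [proj, PiLp.sub_apply, PiLp.smul_apply, smul_eq_mul, inner_coord]
  unfold det3
  linear_combination
    ((a 0 * u 0 + a 1 * u 1 + a 2 * u 2) ^ 2 * (b 0 ^ 2 + b 1 ^ 2 + b 2 ^ 2)
      + (b 0 * u 0 + b 1 * u 1 + b 2 * u 2) ^ 2 * (a 0 ^ 2 + a 1 ^ 2 + a 2 ^ 2)
      - 2 * (a 0 * u 0 + a 1 * u 1 + a 2 * u 2) * (b 0 * u 0 + b 1 * u 1 + b 2 * u 2)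
          * (a 0 * b 0 + a 1 * b 1 + a 2 * b 2)
      - (a 0 ^ 2 + a 1 ^ 2 + a 2 ^ 2) * (b 0 ^ 2 + b 1 ^ 2 + b 2 ^ 2)
      + (a 0 * b 0 + a 1 * b 1 + a 2 * b 2) ^ 2) * hu2

theorem mem_hull3 (P Q R : E3) (a b c : ℝ) (ha : 0 ≤ a) (hb : 0 ≤ b) (hc : 0 ≤ c)
    (h : a + b + c = 1) : a • P + b • Q + c • R ∈ convexHull ℝ ({P, Q, R} : Set E3) := by
  have hconv := convex_convexHull ℝ ({P, Q, R} : Set E3)
  have key := hconv.sum_mem (t := (Finset.univ : Finset (Fin 3))) (w := ![a, b, c])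
    (z := ![P, Q, R]) ?_ ?_ ?_
  · simpa [Fin.sum_univ_three] using key
  · intro i _; fin_cases i <;> simp [ha, hb, hc]
  · simp [Fin.sum_univ_three, h]
  · intro i _
    apply subset_convexHull
    fin_cases i <;> simp

/-- membership in a cylinder over a projected triangle -/
theorem mem_cyl (a P Q R X : E3) (ha : a ≠ 0) (lO lA lB s : ℝ) (hO : 0 ≤ lO) (hA : 0 ≤ lA)
    (hB : 0 ≤ lB) (hsum : lO + lA + lB = 1) (hX : X = lO • P + lA • Q + lB • R + s • a) :
    X ∈ {x : E3 | ∃ b ∈ convexHull ℝ ({proj ((1 / ‖a‖) • a) P, proj ((1 / ‖a‖) • a) Q,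
      proj ((1 / ‖a‖) • a) R} : Set E3), ∃ t : ℝ, x = b + t • ((1 / ‖a‖) • a)} := by
  set u : E3 := (1 / ‖a‖) • a with hu
  have hna : ‖a‖ ≠ 0 := norm_ne_zero_iff.mpr ha
  refine ⟨proj u (lO • P + lA • Q + lB • R), ?_, inner ℝ (lO • P + lA • Q + lB • R) u + s * ‖a‖, ?_⟩
  · rw [proj_add, proj_add, proj_smul, proj_smul, proj_smul]
    exact mem_hull3 _ _ _ lO lA lB hO hA hB hsum
  · have h1 : (s * ‖a‖) • u = s • a := by
      rw [hu, smul_smul]; congr 1; field_simp
    rw [add_smul, h1, hX]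
    unfold proj
    abel

/-! ### the standard tetrahedron in coordinates -/

theorem Kstd_coord (X : E3) (hX : X ∈ Kstd) :
    |X 0| ≤ 1 - X 2 / Real.sqrt 2 ∧ |X 1| ≤ X 2 / Real.sqrt 2 := by
  have hs : (0 : ℝ) < Real.sqrt 2 := Real.sqrt_pos.mpr (by norm_num)
  have hconv : Convex ℝ {X : E3 | |X 0| ≤ 1 - X 2 / Real.sqrt 2 ∧ |X 1| ≤ X 2 / Real.sqrt 2} := by
    intro x hx y hy a b ha hb hab
    obtain ⟨hx1, hx2⟩ := hx
    obtain ⟨hy1, hy2⟩ := hy
    rw [abs_le] at hx1 hx2 hy1 hy2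
    simp only [Set.mem_ofPred_eq, PiLp.add_apply, PiLp.smul_apply, smul_eq_mul]
    have e : (a * x 2 + b * y 2) / Real.sqrt 2 = a * (x 2 / Real.sqrt 2) + b * (y 2 / Real.sqrt 2) := by
      ring
    rw [e, abs_le, abs_le]
    refine ⟨⟨?_, ?_⟩, ⟨?_, ?_⟩⟩ <;> nlinarith [mul_le_mul_of_nonneg_left hx1.1 ha,
      mul_le_mul_of_nonneg_left hx1.2 ha, mul_le_mul_of_nonneg_left hx2.1 ha,
      mul_le_mul_of_nonneg_left hx2.2 ha, mul_le_mul_of_nonneg_left hy1.1 hb,
      mul_le_mul_of_nonneg_left hy1.2 hb, mul_le_mul_of_nonneg_left hy2.1 hb,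
      mul_le_mul_of_nonneg_left hy2.2 hb]
  have hsub : ({!₂[1, 0, 0], !₂[-1, 0, 0], !₂[0, 1, Real.sqrt 2], !₂[0, -1, Real.sqrt 2]} : Set E3)
      ⊆ {X : E3 | |X 0| ≤ 1 - X 2 / Real.sqrt 2 ∧ |X 1| ≤ X 2 / Real.sqrt 2} := by
    intro v hv
    simp only [Set.mem_insert_iff, Set.mem_singleton_iff] at hv
    rcases hv with rfl | rfl | rfl | rfl <;> simp
  exact convexHull_min hsub hconv hX

/-! ### the pieces -/

/-- the point `(x, y, t)` (coordinates `(x, y, z = √2 t)`) lies in the sheared cylinder `i`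
of the first family -/
def InPiece (i : ℕ) (x y t : ℝ) : Prop :=
  tau i * (t - x * (cc * mid i / 2)) ≤ y - x * (cc * (1 + tau i * tau (i + 1)) / 4) ∧
  y - x * (cc * (1 + tau i * tau (i + 1)) / 4) ≤ tau (i + 1) * (t - x * (cc * mid i / 2)) ∧
  t - x * (cc * mid i / 2) ≤ 1 / 2 + rad i

/-- height of the far side -/
noncomputable def hh (j : ℕ) : ℝ := 1 / 2 + rad j

theorem hh_pos (j : ℕ) : 0 < hh j := by
  unfold hh rad cc; positivity

theorem tau_succ_sub (j : ℕ) : tau (j + 1) - tau j = 2 / 5000000 := by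
  unfold tau; push_cast; ring

/-- barycentric coordinates in the triangle with apex `0` and far side at height `hh j` -/
theorem bary (j : ℕ) (y' t' : ℝ) (h1 : tau j * t' ≤ y') (h2 : y' ≤ tau (j + 1) * t')
    (h3 : t' ≤ hh j) :
    ∃ lO lA lB : ℝ, 0 ≤ lO ∧ 0 ≤ lA ∧ 0 ≤ lB ∧ lO + lA + lB = 1 ∧
      lA * (tau j * hh j) + lB * (tau (j + 1) * hh j) = y' ∧ (lA + lB) * hh j = t' := by
  have hd := tau_succ_sub j
  have hh0 := hh_pos j
  have hδ : (0 : ℝ) < 2 / 5000000 := by norm_num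
  refine ⟨1 - t' / hh j, (tau (j + 1) * t' - y') / (hh j * (2 / 5000000)),
    (y' - tau j * t') / (hh j * (2 / 5000000)), ?_, ?_, ?_, ?_, ?_, ?_⟩
  · rw [sub_nonneg, div_le_one hh0]; exact h3
  · apply div_nonneg (by linarith) (by positivity)
  · apply div_nonneg (by linarith) (by positivity)
  · have : tau (j + 1) = tau j + 2 / 5000000 := by linarith
    rw [this]; field_simp; ring
  · have : tau (j + 1) = tau j + 2 / 5000000 := by linarith
    rw [this]; field_simp; ring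
  · have : tau (j + 1) = tau j + 2 / 5000000 := by linarith
    rw [this]; field_simp; ring

/-- `y`-slope of the axis of piece `j` -/
noncomputable def ay (j : ℕ) : ℝ := cc * (1 + tau j * tau (j + 1)) / 4

/-- `t`-slope of the axis of piece `j` -/
noncomputable def azt (j : ℕ) : ℝ := cc * mid j / 2

/-- axes of the `2 N` cylinders -/
noncomputable def axisV (k : ℕ) : E3 :=
  if k < 5000000 then !₂[1, ay k, Real.sqrt 2 * azt k]
  else !₂[ay (k - 5000000), -1, -(Real.sqrt 2 * azt (k - 5000000))]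

/-- apex of the (unprojected) triangle `k` -/
noncomputable def ptP (k : ℕ) : E3 :=
  if k < 5000000 then 0 else !₂[0, 0, Real.sqrt 2]

/-- second vertex of the (unprojected) triangle `k` -/
noncomputable def ptQ (k : ℕ) : E3 :=
  if k < 5000000 then !₂[0, tau k * hh k, Real.sqrt 2 * hh k]
  else !₂[tau (k - 5000000) * hh (k - 5000000), 0,
    Real.sqrt 2 - Real.sqrt 2 * hh (k - 5000000)]

/-- third vertex of the (unprojected) triangle `k` -/
noncomputable def ptR (k : ℕ) : E3 :=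
  if k < 5000000 then !₂[0, tau (k + 1) * hh k, Real.sqrt 2 * hh k]
  else !₂[tau (k - 5000000 + 1) * hh (k - 5000000), 0,
    Real.sqrt 2 - Real.sqrt 2 * hh (k - 5000000)]

/-- unit directions -/
noncomputable def uV (k : ℕ) : E3 := (1 / ‖axisV k‖) • axisV k

/-- index of the piece underlying cylinder `k` -/
def pieceOf (k : ℕ) : ℕ := if k < 5000000 then k else k - 5000000

theorem sqrt2_sq : Real.sqrt 2 ^ 2 = 2 := Real.sq_sqrt (by norm_num)

theorem axisV_norm_sq (k : ℕ) : ‖axisV k‖ ^ 2 = axisSq (pieceOf k) := by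
  have h2 := sqrt2_sq
  rw [norm_sq_coord]
  unfold axisV pieceOf axisSq
  split_ifs with h
  · simp only [ay, azt]
    simp
    linear_combination (cc * mid k / 2) ^ 2 * h2
  · simp only [ay, azt]
    simp
    linear_combination (cc * mid (k - 5000000) / 2) ^ 2 * h2

theorem axisSq_pos (j : ℕ) : 0 < axisSq j := by
  unfold axisSq; positivity

theorem axisV_norm (k : ℕ) : ‖axisV k‖ = Real.sqrt (axisSq (pieceOf k)) := by
  rw [← axisV_norm_sq, Real.sqrt_sq (norm_nonneg _)]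

theorem axisV_norm_pos (k : ℕ) : 0 < ‖axisV k‖ := by
  rw [axisV_norm]; exact Real.sqrt_pos.mpr (axisSq_pos _)

theorem axisV_ne (k : ℕ) : axisV k ≠ 0 := norm_pos_iff.mp (axisV_norm_pos k)

theorem uV_norm (k : ℕ) : ‖uV k‖ = 1 := by
  unfold uV
  rw [norm_smul, Real.norm_of_nonneg (by positivity)]
  exact one_div_mul_cancel (axisV_norm_pos k).ne'

theorem det3_piece (k : ℕ) :
    (det3 (ptQ k - ptP k) (ptR k - ptP k) (axisV k)) ^ 2
      = (Real.sqrt 2 * (hh (pieceOf k)) ^ 2 * (2 / 5000000)) ^ 2 := by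
  unfold det3 ptQ ptP ptR axisV pieceOf
  split_ifs with h
  · have hd := tau_succ_sub k
    have e : tau (k + 1) = tau k + 2 / 5000000 := by linarith
    rw [e]
    simp
    ring
  · have hd := tau_succ_sub (k - 5000000)
    have e : tau (k - 5000000 + 1) = tau (k - 5000000) + 2 / 5000000 := by linarith
    rw [e]
    simp
    ring

theorem gram_piece (k : ℕ) :
    gram (proj (uV k) (ptQ k) - proj (uV k) (ptP k)) (proj (uV k) (ptR k) - proj (uV k) (ptP k))
      = (Real.sqrt 2 * (hh (pieceOf k)) ^ 2 * (2 / 5000000) / Real.sqrt (axisSq (pieceOf k))) ^ 2 := by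
  rw [proj_sub, proj_sub, gram_proj _ _ _ (uV_norm k)]
  unfold uV
  rw [det3_smul, mul_pow, det3_piece, axisV_norm, div_pow, div_pow]
  ring

theorem sqrt_gram_piece (k : ℕ) :
    Real.sqrt (gram (proj (uV k) (ptQ k) - proj (uV k) (ptP k))
        (proj (uV k) (ptR k) - proj (uV k) (ptP k))) / 2
      = Real.sqrt 2 * ((1 / 2 + rad (pieceOf k)) ^ 2
          / (5000000 * Real.sqrt (axisSq (pieceOf k)))) := by
  rw [gram_piece]
  have hpos : 0 < Real.sqrt (axisSq (pieceOf k)) := Real.sqrt_pos.mpr (axisSq_pos _)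
  have hs : (0 : ℝ) < Real.sqrt 2 := Real.sqrt_pos.mpr (by norm_num)
  rw [Real.sqrt_sq (by positivity)]
  unfold hh
  field_simp

theorem gram_piece_pos (k : ℕ) :
    0 < gram (proj (uV k) (ptQ k) - proj (uV k) (ptP k))
        (proj (uV k) (ptR k) - proj (uV k) (ptP k)) := by
  rw [gram_piece]
  have hpos : 0 < Real.sqrt (axisSq (pieceOf k)) := Real.sqrt_pos.mpr (axisSq_pos _)
  have hs : (0 : ℝ) < Real.sqrt 2 := Real.sqrt_pos.mpr (by norm_num)
  have := hh_pos (pieceOf k)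
  positivity

/-- first family: a point of piece `j` lies in cylinder `j` -/
theorem mem_family1 (j : ℕ) (hj : j < 5000000) (X : E3)
    (hin : InPiece j (X 0) (X 1) (X 2 / Real.sqrt 2)) :
    X ∈ {x : E3 | ∃ b ∈ convexHull ℝ ({proj (uV j) (ptP j), proj (uV j) (ptQ j),
      proj (uV j) (ptR j)} : Set E3), ∃ t : ℝ, x = b + t • uV j} := by
  obtain ⟨h1, h2, h3⟩ := hin
  obtain ⟨lO, lA, lB, hO, hA, hB, hsum, hy, ht⟩ := bary j _ _ h1 h2 h3
  have hs : (0 : ℝ) < Real.sqrt 2 := Real.sqrt_pos.mpr (by norm_num)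
  refine mem_cyl (axisV j) (ptP j) (ptQ j) (ptR j) X (axisV_ne j) lO lA lB (X 0) hO hA hB hsum ?_
  unfold axisV ptP ptQ ptR
  rw [if_pos hj, if_pos hj, if_pos hj, if_pos hj]
  apply ext3
  · simp
  · simp only [ay]
    simp
    linarith
  · simp only [azt]
    simp
    have e : X 2 = Real.sqrt 2 * (X 2 / Real.sqrt 2) := by field_simp
    have : lA * (Real.sqrt 2 * hh j) + lB * (Real.sqrt 2 * hh j) = Real.sqrt 2 * ((lA + lB) * hh j) := by
      ring
    rw [this, ht]
    rw [mul_sub, ← e]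
    ring

/-- second family: a point whose reflection lies in piece `j` lies in cylinder `N + j` -/
theorem mem_family2 (j : ℕ) (X : E3)
    (hin : InPiece j (-(X 1)) (X 0) (1 - X 2 / Real.sqrt 2)) :
    X ∈ {x : E3 | ∃ b ∈ convexHull ℝ ({proj (uV (5000000 + j)) (ptP (5000000 + j)),
      proj (uV (5000000 + j)) (ptQ (5000000 + j)),
      proj (uV (5000000 + j)) (ptR (5000000 + j))} : Set E3), ∃ t : ℝ, x = b + t • uV (5000000 + j)} := by
  obtain ⟨h1, h2, h3⟩ := hin
  obtain ⟨lO, lA, lB, hO, hA, hB, hsum, hy, ht⟩ := bary j _ _ h1 h2 h3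
  have hs : (0 : ℝ) < Real.sqrt 2 := Real.sqrt_pos.mpr (by norm_num)
  have hk : ¬ (5000000 + j < 5000000) := by omega
  have hkj : 5000000 + j - 5000000 = j := by omega
  refine mem_cyl (axisV (5000000 + j)) (ptP (5000000 + j)) (ptQ (5000000 + j)) (ptR (5000000 + j)) X
    (axisV_ne _) lO lA lB (-(X 1)) hO hA hB hsum ?_
  unfold axisV ptP ptQ ptR
  rw [if_neg hk, if_neg hk, if_neg hk, if_neg hk, hkj]
  apply ext3
  · simp only [ay] at hy ⊢
    simp
    linarith
  · simp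
  · simp only [azt] at ht ⊢
    simp
    have e : X 2 = Real.sqrt 2 * (X 2 / Real.sqrt 2) := by field_simp
    have e2 : lO * Real.sqrt 2 + lA * (Real.sqrt 2 - Real.sqrt 2 * hh j)
        + lB * (Real.sqrt 2 - Real.sqrt 2 * hh j)
        = Real.sqrt 2 * (lO + lA + lB) - Real.sqrt 2 * ((lA + lB) * hh j) := by ring
    rw [e2, hsum, ht]
    rw [e]
    have e3 : Real.sqrt 2 * (X 2 / Real.sqrt 2) / Real.sqrt 2 = X 2 / Real.sqrt 2 := by field_simp
    rw [e3]
    ring

/-- **Reduction of `core_cover` to the pure real covering statement.** -/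
theorem core_cover_of_pure
    (h : ∀ x y t : ℝ, |x| ≤ 1 - t → |y| ≤ t →
      (∃ i, i < 5000000 ∧ InPiece i x y t) ∨ (∃ i, i < 5000000 ∧ InPiece i (-y) x (1 - t))) :
    ∃ (m : ℕ) (u p q r : Fin m → E3), m ≤ 15000000 ∧
      (∀ i, ‖u i‖ = 1) ∧
      (∀ i, inner ℝ (p i) (u i) = 0 ∧ inner ℝ (q i) (u i) = 0 ∧ inner ℝ (r i) (u i) = 0) ∧
      (∀ i, 0 < gram (q i - p i) (r i - p i)) ∧
      Kstd ⊆ ⋃ i, {x : E3 | ∃ b ∈ convexHull ℝ {p i, q i, r i}, ∃ t : ℝ, x = b + t • u i} ∧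
      ∑ i, Real.sqrt (gram (q i - p i) (r i - p i)) / 2 ≤ Real.sqrt 2 * (1 / 2 - 1 / 10 ^ 9) := by
  refine ⟨10000000, fun i => uV i.val, fun i => proj (uV i.val) (ptP i.val),
    fun i => proj (uV i.val) (ptQ i.val), fun i => proj (uV i.val) (ptR i.val),
    by norm_num, fun i => uV_norm _, fun i => ⟨inner_proj _ _ (uV_norm _),
      inner_proj _ _ (uV_norm _), inner_proj _ _ (uV_norm _)⟩, fun i => gram_piece_pos _, ?_, ?_⟩
  · intro X hX
    obtain ⟨hx, hy⟩ := Kstd_coord X hX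
    rcases h (X 0) (X 1) (X 2 / Real.sqrt 2) hx hy with ⟨j, hj, hin⟩ | ⟨j, hj, hin⟩
    · exact Set.mem_iUnion.mpr ⟨⟨j, by omega⟩, mem_family1 j hj X hin⟩
    · exact Set.mem_iUnion.mpr ⟨⟨5000000 + j, by omega⟩, mem_family2 j X hin⟩
  · have hsum : ∑ i : Fin 10000000, Real.sqrt (gram (proj (uV i.val) (ptQ i.val) - proj (uV i.val) (ptP i.val))
        (proj (uV i.val) (ptR i.val) - proj (uV i.val) (ptP i.val))) / 2
        = ∑ k ∈ Finset.range (5000000 + 5000000), Real.sqrt 2 * ((1 / 2 + rad (pieceOf k)) ^ 2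
          / (5000000 * Real.sqrt (axisSq (pieceOf k)))) := by
      rw [← Fin.sum_univ_eq_sum_range (fun k => Real.sqrt 2 * ((1 / 2 + rad (pieceOf k)) ^ 2
          / (5000000 * Real.sqrt (axisSq (pieceOf k))))) (5000000 + 5000000)]
      apply Finset.sum_congr rfl
      intro i _
      exact sqrt_gram_piece i.val
    rw [hsum, Finset.sum_range_add]
    have e1 : ∑ k ∈ Finset.range 5000000, Real.sqrt 2 * ((1 / 2 + rad (pieceOf k)) ^ 2
          / (5000000 * Real.sqrt (axisSq (pieceOf k))))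
        = Real.sqrt 2 * ∑ k ∈ Finset.range 5000000, (1 / 2 + rad k) ^ 2
          / (5000000 * Real.sqrt (axisSq k)) := by
      rw [Finset.mul_sum]
      apply Finset.sum_congr rfl
      intro k hk
      have : pieceOf k = k := by unfold pieceOf; rw [if_pos (Finset.mem_range.mp hk)]
      rw [this]
    have e2 : ∑ k ∈ Finset.range 5000000, Real.sqrt 2 * ((1 / 2 + rad (pieceOf (5000000 + k))) ^ 2
          / (5000000 * Real.sqrt (axisSq (pieceOf (5000000 + k)))))
        = Real.sqrt 2 * ∑ k ∈ Finset.range 5000000, (1 / 2 + rad k) ^ 2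
          / (5000000 * Real.sqrt (axisSq k)) := by
      rw [Finset.mul_sum]
      apply Finset.sum_congr rfl
      intro k _
      have : pieceOf (5000000 + k) = k := by
        unfold pieceOf; rw [if_neg (by omega)]; omega
      rw [this]
    rw [e1, e2]
    have hc := cost_half
    have hs : (0 : ℝ) ≤ Real.sqrt 2 := Real.sqrt_nonneg 2
    nlinarith [mul_le_mul_of_nonneg_left hc hs]

end Crest.Agent.S0324.Helper65
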