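import Mathlib
import Crest.Agent.Lib.S0324.Area
import Crest.Agent.Lib.S0324.Helper65Glue
import Crest.Agent.Lib.S0324.CoverReal

/-!
# Row 211, package P3: the explicit cover of the standard regular tetrahedron

`core_cover`: `Kstd` is covered by `10⁷` cylinders over thin triangles (a discrete radial sweep
from the edge `y = t = 0` with slightly tilted axes, and its mirror image), of total base area
at most `√2 (1/2 - 10⁻⁹)`.

The geometric glue and the cost sum are in `Helper65Glue` / `Helper65Cost` (helper65); the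
pure real covering statement is proved here from `CoverReal` (discrete intermediate value
theorem, the interface `t ≤ 1/2 + c x y + c² (y² - x²)(y² + 1/4)` and the far-side inequality).
-/

set_option autoImplicit false
open MeasureTheory
open scoped ENNReal

namespace Crest.Agent.S0324

open Crest.Agent.S0324.Helper65

theorem h59_tau_zero : tau 0 = -1 := by unfold tau; simp

theorem h59_tau_last : tau 5000000 = 1 := by unfold tau; norm_num

theorem h59_tau_eq (i : ℕ) : tau i = mid i - 1 / 5000000 := by
  unfold mid tau; push_cast; ring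

theorem h59_tau_succ_eq (i : ℕ) : tau (i + 1) = mid i + 1 / 5000000 := by
  unfold mid tau; push_cast; ring

theorem h59_mid_lower (i : ℕ) : -1 + 1 / 5000000 ≤ mid i := by
  rw [mid_eq]
  have h0 : (0 : ℝ) ≤ i := Nat.cast_nonneg i
  rw [le_div_iff₀ (by norm_num)]
  linarith

theorem h59_mid_upper (i : ℕ) (hi : i < 5000000) : mid i ≤ 1 - 1 / 5000000 := by
  rw [mid_eq]
  have h1 : (i : ℝ) ≤ 4999999 := by
    have : i ≤ 4999999 := by omega
    exact_mod_cast this
  rw [div_le_iff₀ (by norm_num)]
  linarith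

/-- Below the interface, a point of the tetrahedron lies in a piece of the first family. -/
theorem h59_lower_piece (x y t : ℝ) (hx : |x| ≤ 1 - t) (hy : |y| ≤ t) (ht : t ≤ theta x y) :
    ∃ i, i < 5000000 ∧ InPiece i x y t := by
  have hy1 : -t ≤ y := (abs_le.mp hy).1
  have hy2 : y ≤ t := (abs_le.mp hy).2
  obtain ⟨i, hi, hf1, hf2⟩ := exists_sign_change
    (fun j => y - tau j * t - x * (1 / 1000) * (1 - tau j ^ 2) / 4) 5000000 (by norm_num)
    (by simp only [h59_tau_zero]; linarith) (by simp only [h59_tau_last]; linarith)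
  rw [h59_tau_eq i] at hf1
  rw [h59_tau_succ_eq i] at hf2
  have htop := top_bound x y t (mid i) (h59_mid_lower i) (h59_mid_upper i hi) hy hx ht hf1 hf2
  refine ⟨i, hi, ?_, ?_, ?_⟩
  · rw [tau_mul, h59_tau_eq i]
    unfold cc
    linarith
  · rw [tau_mul, h59_tau_succ_eq i]
    unfold cc
    linarith
  · unfold rad cc
    linarith

/-- The pure real covering statement. -/
theorem h59_pure_cover (x y t : ℝ) (hx : |x| ≤ 1 - t) (hy : |y| ≤ t) :
    (∃ i, i < 5000000 ∧ InPiece i x y t) ∨ (∃ i, i < 5000000 ∧ InPiece i (-y) x (1 - t)) := by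
  rcases theta_interface x y t with h | h
  · exact Or.inl (h59_lower_piece x y t hx hy h)
  · right
    apply h59_lower_piece (-y) x (1 - t)
    · rw [abs_neg]; linarith
    · linarith
    · have e : theta (-y) x = theta y (-x) := by unfold theta; ring
      rw [e]; exact h

/-- P3: `Kstd` is covered by `m ≤ 1.5·10⁷` cylinders over nondegenerate triangles `conv {p i, q i, r i}`
in the planes `(u i)^⊥` whose areas `√(gram (q i - p i) (r i - p i)) / 2` sum to at most
`√2 (1/2 - 10⁻⁹)`. -/
theorem core_cover :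
    ∃ (m : ℕ) (u p q r : Fin m → E3), m ≤ 15000000 ∧
      (∀ i, ‖u i‖ = 1) ∧
      (∀ i, inner ℝ (p i) (u i) = 0 ∧ inner ℝ (q i) (u i) = 0 ∧ inner ℝ (r i) (u i) = 0) ∧
      (∀ i, 0 < gram (q i - p i) (r i - p i)) ∧
      Kstd ⊆ ⋃ i, {x : E3 | ∃ b ∈ convexHull ℝ {p i, q i, r i}, ∃ t : ℝ, x = b + t • u i} ∧
      ∑ i, Real.sqrt (gram (q i - p i) (r i - p i)) / 2 ≤ Real.sqrt 2 * (1 / 2 - 1 / 10 ^ 9) :=
  core_cover_of_pure h59_pure_cover

end Crest.Agent.S0324
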