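import Mathlib

/-!
# Row 211, package P4 (helper48): assembly of S0324, parametrised by the shared interface

`main_of` derives the exact statement of `Crest/Templates/S0324.lean.txt` from the five interface
facts of row 211 (P1 `muHE_triangle`, `muHE_eq_const_mul_muH`; P2 `proj_Kstd_ge`,
`proj_Kstd_lt_top`; P3 `core_cover`), taken here as hypotheses so that this module only imports
Mathlib.  `Crest/Agent/Lib/S0324/Main.lean` instantiates the hypotheses.
-/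

set_option autoImplicit false
open MeasureTheory
open scoped ENNReal

namespace Crest.Agent.S0324.Helper48

/-- Euclidean 3-space. -/
abbrev E3 : Type := EuclideanSpace ℝ (Fin 3)

/-- Gram determinant of two vectors (reducible copy of `Crest.Agent.S0324.gram`). -/
noncomputable abbrev gram' (a b : E3) : ℝ := ‖a‖ ^ 2 * ‖b‖ ^ 2 - (inner ℝ a b) ^ 2

/-- The standard regular tetrahedron of S0324/S0325. -/
noncomputable abbrev K : Set E3 :=
  convexHull ℝ {!₂[1, 0, 0], !₂[-1, 0, 0], !₂[0, 1, Real.sqrt 2], !₂[0, -1, Real.sqrt 2]}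

/-- Statement of the interface lemma `core_cover` (P3). -/
def CoreCover : Prop :=
  ∃ (m : ℕ) (u p q r : Fin m → E3), m ≤ 15000000 ∧
    (∀ i, ‖u i‖ = 1) ∧
    (∀ i, inner ℝ (p i) (u i) = 0 ∧ inner ℝ (q i) (u i) = 0 ∧ inner ℝ (r i) (u i) = 0) ∧
    (∀ i, 0 < gram' (q i - p i) (r i - p i)) ∧
    K ⊆ ⋃ i, {x : E3 | ∃ b ∈ convexHull ℝ {p i, q i, r i}, ∃ t : ℝ, x = b + t • u i} ∧
    ∑ i, Real.sqrt (gram' (q i - p i) (r i - p i)) / 2 ≤ Real.sqrt 2 * (1 / 2 - 1 / 10 ^ 9)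

/-- Statement of the interface lemma `muHE_triangle` (P1). -/
def TriangleArea : Prop :=
  ∀ P Q R : E3, μHE[2] (convexHull ℝ ({P, Q, R} : Set E3)) =
    ENNReal.ofReal (Real.sqrt (gram' (Q - P) (R - P)) / 2)

/-- Statement of the interface lemma `muHE_eq_const_mul_muH` (P1). -/
def HausdorffConst : Prop :=
  ∃ κ : ℝ, 0 < κ ∧ ∀ s : Set E3, μHE[2] s = ENNReal.ofReal κ * μH[(2 : ℝ)] s

/-- Statement of the interface lemma `proj_Kstd_ge` (P2). -/
def ProjGe : Prop :=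
  ∀ v : E3, ‖v‖ = 1 →
    ENNReal.ofReal (Real.sqrt 2) ≤ μHE[2] ((fun y : E3 => y - inner ℝ y v • v) '' K)

/-- Statement of the interface lemma `proj_Kstd_lt_top` (P2). -/
def ProjLtTop : Prop :=
  ∀ v : E3, ‖v‖ = 1 → μHE[2] ((fun y : E3 => y - inner ℝ y v • v) '' K) < ⊤

/-- Statement of the interface lemma `proj_Kstd_eq` (P2). -/
def ProjEq : Prop :=
  μHE[2] ((fun y : E3 => y - inner ℝ y (!₂[1, 0, 0] : E3) • (!₂[1, 0, 0] : E3)) '' K) =
    ENNReal.ofReal (Real.sqrt 2)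

/-- `toReal` of the area of a triangle. -/
theorem triangle_toReal (htri : TriangleArea) (P Q R : E3) :
    (μHE[2] (convexHull ℝ ({P, Q, R} : Set E3))).toReal =
      Real.sqrt (gram' (Q - P) (R - P)) / 2 := by
  rw [htri, ENNReal.toReal_ofReal]
  positivity

/-- Real lower bound for the projection areas of `K`. -/
theorem proj_toReal_ge (hge : ProjGe) (hlt : ProjLtTop) (v : E3) (hv : ‖v‖ = 1) :
    Real.sqrt 2 ≤ (μHE[2] ((fun y : E3 => y - inner ℝ y v • v) '' K)).toReal := by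
  have h1 := hge v hv
  have h2 := hlt v hv
  have h3 := ENNReal.toReal_mono h2.ne h1
  rwa [ENNReal.toReal_ofReal (Real.sqrt_nonneg 2)] at h3

/-- S0324 from the interface facts. -/
theorem main_of (hcore : CoreCover) (htri : TriangleArea) (hconst : HausdorffConst)
    (hge : ProjGe) (hlt : ProjLtTop) :
    ∃ (m : ℕ) (u p q r : Fin m → EuclideanSpace ℝ (Fin 3)),
      (∀ i, ‖u i‖ = 1) ∧
      (∀ i, inner ℝ (p i) (u i) = 0 ∧ inner ℝ (q i) (u i) = 0 ∧ inner ℝ (r i) (u i) = 0) ∧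
      convexHull ℝ {!₂[1, 0, 0], !₂[-1, 0, 0], !₂[0, 1, Real.sqrt 2], !₂[0, -1, Real.sqrt 2]} ⊆
        ⋃ i, {x : EuclideanSpace ℝ (Fin 3) | ∃ b ∈ convexHull ℝ {p i, q i, r i}, ∃ t : ℝ, x = b + t • u i} ∧
      ∃ δ : ℝ, 0 < δ ∧ ∀ v : EuclideanSpace ℝ (Fin 3), ‖v‖ = 1 →
        ∑ i, (μH[(2 : ℝ)] (convexHull ℝ {p i, q i, r i})).toReal + δ ≤
          (μH[(2 : ℝ)] ((fun y => y - inner ℝ y v • v) '' convexHull ℝ {!₂[1, 0, 0], !₂[-1, 0, 0], !₂[0, 1, Real.sqrt 2], !₂[0, -1, Real.sqrt 2]})).toReal / 2 := by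
  obtain ⟨m, u, p, q, r, -, hu, hperp, -, hcov, hsum⟩ := hcore
  obtain ⟨κ, hκ, hκeq⟩ := hconst
  have hs2 : (0 : ℝ) < Real.sqrt 2 := Real.sqrt_pos.mpr (by norm_num)
  refine ⟨m, u, p, q, r, hu, hperp, hcov, Real.sqrt 2 * (1 / 10 ^ 9) / κ, by positivity, ?_⟩
  intro v hv
  have key : ∀ s : Set E3, (μH[(2 : ℝ)] s).toReal = (μHE[2] s).toReal / κ := by
    intro s
    rw [hκeq s, ENNReal.toReal_mul, ENNReal.toReal_ofReal hκ.le]
    field_simp
  have hsum' : ∑ i, (μH[(2 : ℝ)] (convexHull ℝ ({p i, q i, r i} : Set E3))).toReal =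
      (∑ i, Real.sqrt (gram' (q i - p i) (r i - p i)) / 2) / κ := by
    rw [Finset.sum_div]
    refine Finset.sum_congr rfl fun i _ => ?_
    rw [key, triangle_toReal htri]
  have hproj := proj_toReal_ge hge hlt v hv
  rw [hsum', key]
  have h1 : (∑ i, Real.sqrt (gram' (q i - p i) (r i - p i)) / 2) + Real.sqrt 2 * (1 / 10 ^ 9) ≤
      (μHE[2] ((fun y : E3 => y - inner ℝ y v • v) '' K)).toReal / 2 := by
    nlinarith [hsum, hproj]
  calc (∑ i, Real.sqrt (gram' (q i - p i) (r i - p i)) / 2) / κ + Real.sqrt 2 * (1 / 10 ^ 9) / κ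
      = ((∑ i, Real.sqrt (gram' (q i - p i) (r i - p i)) / 2) + Real.sqrt 2 * (1 / 10 ^ 9)) / κ := by
        ring
    _ ≤ ((μHE[2] ((fun y : E3 => y - inner ℝ y v • v) '' K)).toReal / 2) / κ := by
        exact div_le_div_of_nonneg_right h1 hκ.le
    _ = (μHE[2] ((fun y : E3 => y - inner ℝ y v • v) '' K)).toReal / κ / 2 := by ring

end Crest.Agent.S0324.Helper48
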