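import Mathlib
import Crest.Agent.Lib.S0324.Helper65Cost

/-!
# Row 211 / P3: the pure-real coverage statement for the cover of the standard tetrahedron

With the notation of `Helper65Cost` (`cc = 1/1000`, `tau`, `mid`, `rad`), every point `(x, y, t)` of
the tetrahedron `|x| ≤ 1 - t`, `|y| ≤ t` lies in a piece of the first family or its mirror image
`(-y, x, 1 - t)` lies in one.
-/

set_option autoImplicit false

namespace Crest.Agent.S0324.Helper57

open Crest.Agent.S0324.Helper65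

/-- Discrete intermediate value theorem. -/
theorem discrete_ivt (f : ℕ → ℝ) (N : ℕ) (h0 : 0 ≤ f 0) (hN : f N ≤ 0) (hNpos : 0 < N) :
    ∃ i, i < N ∧ 0 ≤ f i ∧ f (i + 1) ≤ 0 := by
  by_contra hcon
  have hcon : ∀ i, i < N → 0 ≤ f i → 0 < f (i + 1) := by
    intro i hi hfi
    by_contra h
    exact hcon ⟨i, hi, hfi, not_lt.mp h⟩
  have key : ∀ i, i ≤ N → 0 ≤ f i := by
    intro i
    induction i with
    | zero => intro _; exact h0
    | succ k ih =>
      intro hk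
      have hk' : k < N := hk
      exact (hcon k hk' (ih hk'.le)).le
  have h1 : N - 1 < N := by omega
  have h2 := hcon (N - 1) h1 (key _ h1.le)
  have h3 : N - 1 + 1 = N := by omega
  rw [h3] at h2
  linarith

/-- The far-side inequality below the interface (`c = 1/1000`, `h = 1/5000000`). -/
theorem far_side (x y t m : ℝ) (hx : |x| ≤ 1 - t) (hy : |y| ≤ t) (hm : |m| ≤ 1)
    (w1 : (m - 1 / 5000000) * (t - x * (1 / 1000 * m / 2))
        ≤ y - x * (1 / 1000 * (1 + (m - 1 / 5000000) * (m + 1 / 5000000)) / 4))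
    (w2 : y - x * (1 / 1000 * (1 + (m - 1 / 5000000) * (m + 1 / 5000000)) / 4)
        ≤ (m + 1 / 5000000) * (t - x * (1 / 1000 * m / 2)))
    (hint : t ≤ 1 / 2 + 1 / 1000 * x * y + (1 / 1000) ^ 2 * (y ^ 2 - x ^ 2) * (y ^ 2 + 1 / 4)) :
    t - x * (1 / 1000 * m / 2)
      ≤ 1 / 2 + ((1 / 1000) ^ 2 * (m ^ 4 + m ^ 2) / 16 + (1 / 1000) ^ 3 + 1 / 1000 / 5000000) := by
  obtain ⟨hx1, hx2⟩ := abs_le.mp hx
  obtain ⟨hy1, hy2⟩ := abs_le.mp hy
  obtain ⟨hm1, hm2⟩ := abs_le.mp hm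
  have ht0 : 0 ≤ t := le_trans (abs_nonneg y) hy
  have ht1 : t ≤ 1 := by linarith only [abs_nonneg x, hx]
  have hmsq : m ^ 2 ≤ 1 := by nlinarith only [hm1, hm2]
  have hQ0 : 0 ≤ m ^ 4 + m ^ 2 := by positivity
  have hQ1 : m ^ 4 + m ^ 2 ≤ 2 := by nlinarith only [sq_nonneg (m ^ 2), sq_nonneg m, hmsq]
  have hp : |x * m| ≤ 1 - t := by
    rw [abs_mul]
    calc |x| * |m| ≤ (1 - t) * 1 := mul_le_mul hx hm (abs_nonneg _) (by linarith only [ht1])
      _ = 1 - t := by ring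
  obtain ⟨hp1, hp2⟩ := abs_le.mp hp
  have hfinD : t - x * (1 / 1000 * m / 2) = 1 / 2 + (t - 1 / 2 - 1 / 1000 * (x * m) / 2) := by ring
  rw [hfinD]
  by_cases hs : t ≤ 1 / 2 - 1 / 2000
  · linarith only [hp1, hp2, hQ0, hs]
  have hs' : 1 / 2 - 1 / 2000 < t := not_le.mp hs
  -- upper bound on `t`
  have hxy : x * y ≤ 1 / 4 := by
    have h1 : |x * y| ≤ (1 - t) * t := by
      rw [abs_mul]; exact mul_le_mul hx hy (abs_nonneg _) (by linarith only [ht1])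
    have h2 := (abs_le.mp h1).2
    nlinarith only [sq_nonneg (t - 1 / 2), h2]
  have hysq1 : y ^ 2 ≤ 1 := by nlinarith only [hy1, hy2, ht1, ht0]
  have hterm : (y ^ 2 - x ^ 2) * (y ^ 2 + 1 / 4) ≤ 5 / 4 := by
    nlinarith only [sq_nonneg x, sq_nonneg y, mul_nonneg (sq_nonneg x) (sq_nonneg y), hysq1]
  have htu : t ≤ 1 / 2 + 1 / 3000 := by linarith only [hint, hxy, hterm]
  have hxb1 : -(1 / 2 + 1 / 2000) ≤ x := by linarith only [hx1, hs']
  have hxb2 : x ≤ 1 / 2 + 1 / 2000 := by linarith only [hx2, hs']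
  have hpb1 : -(1 / 2 + 1 / 2000) ≤ x * m := by linarith only [hp1, hs']
  have hpb2 : x * m ≤ 1 / 2 + 1 / 2000 := by linarith only [hp2, hs']
  have hyb1 : -(1 / 2 + 1 / 3000) ≤ y := by linarith only [hy1, htu]
  have hyb2 : y ≤ 1 / 2 + 1 / 3000 := by linarith only [hy2, htu]
  -- the error `E1` of `y` against the mid wall
  obtain ⟨E1, hE1⟩ : ∃ E1 : ℝ, E1 = y - m * t - x * (1 / 1000) * (1 - m ^ 2) / 4 := ⟨_, rfl⟩
  have w1' : 0 ≤ E1 + 1 / 5000000 * t - (1 / 1000) * (1 / 5000000) / 2 * (x * m)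
      + (1 / 1000) * (1 / 5000000) ^ 2 / 4 * x := by
    have e : (y - x * (1 / 1000 * (1 + (m - 1 / 5000000) * (m + 1 / 5000000)) / 4))
        - (m - 1 / 5000000) * (t - x * (1 / 1000 * m / 2))
        = E1 + 1 / 5000000 * t - (1 / 1000) * (1 / 5000000) / 2 * (x * m)
          + (1 / 1000) * (1 / 5000000) ^ 2 / 4 * x := by rw [hE1]; ring
    rw [← e]; exact sub_nonneg.mpr w1
  have w2' : 0 ≤ -E1 + 1 / 5000000 * t - (1 / 1000) * (1 / 5000000) / 2 * (x * m)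
      - (1 / 1000) * (1 / 5000000) ^ 2 / 4 * x := by
    have e : (m + 1 / 5000000) * (t - x * (1 / 1000 * m / 2))
        - (y - x * (1 / 1000 * (1 + (m - 1 / 5000000) * (m + 1 / 5000000)) / 4))
        = -E1 + 1 / 5000000 * t - (1 / 1000) * (1 / 5000000) / 2 * (x * m)
          - (1 / 1000) * (1 / 5000000) ^ 2 / 4 * x := by rw [hE1]; ring
    rw [← e]; exact sub_nonneg.mpr w2
  have hE1a : -(51 / 100 * (1 / 5000000)) ≤ E1 := by
    linarith only [w1', htu, hpb1, hpb2, hxb1, hxb2]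
  have hE1b : E1 ≤ 51 / 100 * (1 / 5000000) := by
    linarith only [w2', htu, hpb1, hpb2, hxb1, hxb2]
  -- `d = y - m/2`
  obtain ⟨d, hd⟩ : ∃ d : ℝ, d = y - m / 2 := ⟨_, rfl⟩
  have hms : |m * (t - 1 / 2)| ≤ 1 / 2000 := by
    rw [abs_mul]
    have h1 : |t - 1 / 2| ≤ 1 / 2000 :=
      abs_le.mpr ⟨by linarith only [hs'], by linarith only [htu]⟩
    calc |m| * |t - 1 / 2| ≤ 1 * (1 / 2000) := mul_le_mul hm h1 (abs_nonneg _) (by norm_num)
      _ = 1 / 2000 := by ring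
  obtain ⟨hms1, hms2⟩ := abs_le.mp hms
  have hq : |x * (1 - m ^ 2)| ≤ 1 / 2 + 1 / 2000 := by
    rw [abs_mul]
    have h1 : |1 - m ^ 2| ≤ 1 :=
      abs_le.mpr ⟨by linarith only [hmsq], by linarith only [sq_nonneg m]⟩
    have h2 : |x| ≤ 1 / 2 + 1 / 2000 := abs_le.mpr ⟨hxb1, hxb2⟩
    calc |x| * |1 - m ^ 2| ≤ (1 / 2 + 1 / 2000) * 1 :=
          mul_le_mul h2 h1 (abs_nonneg _) (by norm_num)
      _ = 1 / 2 + 1 / 2000 := by ring
  obtain ⟨hq1, hq2⟩ := abs_le.mp hq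
  have hdeq : d = m * (t - 1 / 2) + 1 / 4000 * (x * (1 - m ^ 2)) + E1 := by rw [hd, hE1]; ring
  have hd1 : -(63 / 100000) ≤ d := by linarith only [hdeq, hms1, hq1, hE1a]
  have hd2 : d ≤ 63 / 100000 := by linarith only [hdeq, hms2, hq2, hE1b]
  have hmd : |m * d| ≤ 63 / 100000 := by
    rw [abs_mul]
    have h1 : |d| ≤ 63 / 100000 := abs_le.mpr ⟨hd1, hd2⟩
    calc |m| * |d| ≤ 1 * (63 / 100000) := mul_le_mul hm h1 (abs_nonneg _) (by norm_num)
      _ = 63 / 100000 := by ring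
  obtain ⟨hmd1, hmd2⟩ := abs_le.mp hmd
  have hdd : d ^ 2 ≤ (63 / 100000) ^ 2 := by nlinarith only [hd1, hd2]
  obtain ⟨e, he⟩ : ∃ e : ℝ, e = m * d + d ^ 2 := ⟨_, rfl⟩
  have he1 : -(631 / 1000000) ≤ e := by linarith only [he, hmd1, sq_nonneg d]
  have he2 : e ≤ 631 / 1000000 := by linarith only [he, hmd2, hdd]
  obtain ⟨W, hW⟩ : ∃ W : ℝ, W = y ^ 2 + 1 / 4 + m ^ 2 / 4 - x ^ 2 := ⟨_, rfl⟩
  have hysq : y ^ 2 ≤ (1 / 2 + 1 / 3000) ^ 2 := by nlinarith only [hyb1, hyb2]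
  have hxsq : x ^ 2 ≤ (1 / 2 + 1 / 2000) ^ 2 := by nlinarith only [hxb1, hxb2]
  have hW1 : -(751 / 1000) ≤ W := by linarith only [hW, sq_nonneg y, sq_nonneg m, hxsq]
  have hW2 : W ≤ 751 / 1000 := by linarith only [hW, sq_nonneg x, hysq, hmsq]
  have hG : |e * W| ≤ 475 / 1000000 := by
    rw [abs_mul]
    have h1 : |e| ≤ 631 / 1000000 := abs_le.mpr ⟨he1, he2⟩
    have h2 : |W| ≤ 751 / 1000 := abs_le.mpr ⟨hW1, hW2⟩
    calc |e| * |W| ≤ (631 / 1000000) * (751 / 1000) :=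
          mul_le_mul h1 h2 (abs_nonneg _) (by norm_num)
      _ ≤ 475 / 1000000 := by norm_num
  obtain ⟨hG1, hG2⟩ := abs_le.mp hG
  have hxE : |x * E1| ≤ 26 / 100 * (1 / 5000000) := by
    rw [abs_mul]
    have h1 : |x| ≤ 1 / 2 + 1 / 2000 := abs_le.mpr ⟨hxb1, hxb2⟩
    have h2 : |E1| ≤ 51 / 100 * (1 / 5000000) := abs_le.mpr ⟨hE1a, hE1b⟩
    calc |x| * |E1| ≤ (1 / 2 + 1 / 2000) * (51 / 100 * (1 / 5000000)) :=
          mul_le_mul h1 h2 (abs_nonneg _) (by norm_num)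
      _ ≤ 26 / 100 * (1 / 5000000) := by norm_num
  obtain ⟨hxE1, hxE2⟩ := abs_le.mp hxE
  -- the main identity
  obtain ⟨D, hD⟩ : ∃ D : ℝ, D = t - 1 / 2 - 1 / 1000 * (x * m) / 2 := ⟨_, rfl⟩
  have key : 1 / 1000 * x * y + (1 / 1000) ^ 2 * (y ^ 2 - x ^ 2) * (y ^ 2 + 1 / 4)
      = 1 / 1000 * (x * m) / 2 + 1 / 1000 * (x * m * D) + (1 / 1000) ^ 2 * (m ^ 4 + m ^ 2) / 16
        + 1 / 1000 * (x * E1) + (1 / 1000) ^ 2 * (e * W) := by
    rw [hD, he, hW, hd, hE1]; ring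
  have hDle : D ≤ 1 / 1000 * (x * m * D) + (1 / 1000) ^ 2 * (m ^ 4 + m ^ 2) / 16
      + 1 / 1000 * (x * E1) + (1 / 1000) ^ 2 * (e * W) := by
    linarith only [hint, key, hD]
  rw [← hD]
  by_cases hD0 : D ≤ 0
  · linarith only [hD0, hQ0]
  · have hD0' : 0 < D := not_le.mp hD0
    have hpD : x * m * D ≤ (1 / 2 + 1 / 2000) * D := mul_le_mul_of_nonneg_right hpb2 hD0'.le
    have hDup : D ≤ 143 / 1000000000 := by linarith only [hDle, hpD, hQ1, hxE2, hG2]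
    linarith only [hDle, hpD, hDup, hxE2, hG2]

/-- Below the interface `t ≤ 1/2 + c x y + c² (y² - x²)(y² + 1/4)` the first family covers. -/
theorem cover_below (x y t : ℝ) (hx : |x| ≤ 1 - t) (hy : |y| ≤ t)
    (hint : t ≤ 1 / 2 + cc * x * y + cc ^ 2 * (y ^ 2 - x ^ 2) * (y ^ 2 + 1 / 4)) :
    ∃ i, i < 5000000 ∧
      (tau i * (t - x * (cc * mid i / 2)) ≤ y - x * (cc * (1 + tau i * tau (i + 1)) / 4) ∧
       y - x * (cc * (1 + tau i * tau (i + 1)) / 4) ≤ tau (i + 1) * (t - x * (cc * mid i / 2)) ∧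
       t - x * (cc * mid i / 2) ≤ 1 / 2 + rad i) := by
  obtain ⟨hy1, hy2⟩ := abs_le.mp hy
  have hcc : cc = 1 / 1000 := rfl
  have ht0 : tau 0 = -1 := by unfold tau; norm_num
  have htN : tau 5000000 = 1 := by unfold tau; norm_num
  obtain ⟨i, hi, hfi, hfi1⟩ := discrete_ivt
    (fun j => y - tau j * t - x * cc * (1 - tau j ^ 2) / 4) 5000000
    (by simp only [ht0]; linarith only [hy1])
    (by simp only [htN]; linarith only [hy2])
    (by norm_num)
  have h1 : tau i * (t - x * (cc * mid i / 2)) ≤ y - x * (cc * (1 + tau i * tau (i + 1)) / 4) := by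
    have e : (y - x * (cc * (1 + tau i * tau (i + 1)) / 4)) - tau i * (t - x * (cc * mid i / 2))
        = y - tau i * t - x * cc * (1 - tau i ^ 2) / 4 := by unfold mid; ring
    exact sub_nonneg.mp (by rw [e]; exact hfi)
  have h2 : y - x * (cc * (1 + tau i * tau (i + 1)) / 4)
      ≤ tau (i + 1) * (t - x * (cc * mid i / 2)) := by
    have e : tau (i + 1) * (t - x * (cc * mid i / 2)) - (y - x * (cc * (1 + tau i * tau (i + 1)) / 4))
        = -(y - tau (i + 1) * t - x * cc * (1 - tau (i + 1) ^ 2) / 4) := by unfold mid; ring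
    exact sub_nonneg.mp (by rw [e]; linarith only [hfi1])
  refine ⟨i, hi, h1, h2, ?_⟩
  have hti : tau i = mid i - 1 / 5000000 := by unfold mid tau; push_cast; ring
  have hti1 : tau (i + 1) = mid i + 1 / 5000000 := by unfold mid tau; push_cast; ring
  have hm : |mid i| ≤ 1 := by
    have h := mid_sq_le i hi
    exact abs_le_one_iff_mul_self_le_one.mpr (by nlinarith only [h])
  rw [hti, hti1, hcc] at h1 h2
  rw [hcc] at hint
  have h3 := far_side x y t (mid i) hx hy hm h1 h2 hint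
  unfold rad
  rw [hcc]
  linarith only [h3]

/-- **Pure-real coverage**: every point of the tetrahedron `|x| ≤ 1 - t`, `|y| ≤ t` lies in a piece
of the first family, or its mirror image `(-y, x, 1 - t)` does. -/
theorem pure_cover (x y t : ℝ) (hx : |x| ≤ 1 - t) (hy : |y| ≤ t) :
    (∃ i, i < 5000000 ∧
      (tau i * (t - x * (cc * mid i / 2)) ≤ y - x * (cc * (1 + tau i * tau (i + 1)) / 4) ∧
       y - x * (cc * (1 + tau i * tau (i + 1)) / 4) ≤ tau (i + 1) * (t - x * (cc * mid i / 2)) ∧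
       t - x * (cc * mid i / 2) ≤ 1 / 2 + rad i)) ∨
    (∃ i, i < 5000000 ∧
      (tau i * ((1 - t) - (-y) * (cc * mid i / 2)) ≤ x - (-y) * (cc * (1 + tau i * tau (i + 1)) / 4) ∧
       x - (-y) * (cc * (1 + tau i * tau (i + 1)) / 4)
         ≤ tau (i + 1) * ((1 - t) - (-y) * (cc * mid i / 2)) ∧
       (1 - t) - (-y) * (cc * mid i / 2) ≤ 1 / 2 + rad i)) := by
  by_cases hint : t ≤ 1 / 2 + cc * x * y + cc ^ 2 * (y ^ 2 - x ^ 2) * (y ^ 2 + 1 / 4)
  · exact Or.inl (cover_below x y t hx hy hint)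
  · right
    have hint' := not_le.mp hint
    apply cover_below (-y) x (1 - t)
    · rw [abs_neg]; linarith only [hy]
    · exact hx
    · have h : 0 ≤ cc ^ 2 * (y ^ 2 - x ^ 2) ^ 2 := by positivity
      nlinarith only [h, hint']

end Crest.Agent.S0324.Helper57
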