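import Mathlib

/-!
# Areas of planar sets in Euclidean 3-space (helper62, team 211)

Main results (all in `namespace Crest.Agent.S0324.Helper62`, `E2 = EuclideanSpace ℝ (Fin 2)`,
`E3 = EuclideanSpace ℝ (Fin 3)`, `gram a b = ‖a‖ ^ 2 * ‖b‖ ^ 2 - inner ℝ a b ^ 2`):

* `area_param_image c a b S : μHE[2] ((fun x : E2 => c + (x 0 • a + x 1 • b)) '' S)
    = ENNReal.ofReal (√(gram a b)) * volume S`  (any set `S` of parameters);
* `triangle_area p q r : μHE[2] (convexHull ℝ {p, q, r}) = ENNReal.ofReal (√(gram (q - p) (r - p)) / 2)`;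
* `parallelogram_area c a b : μHE[2] {x | ∃ s ∈ Icc 0 1, ∃ t ∈ Icc 0 1, x = c + s • a + t • b}
    = ENNReal.ofReal (√(gram a b))`;
* `exists_hausdorff_scale : ∃ κ > 0, ∀ s, (μH[2] s).toReal = κ * (μHE[2] s).toReal`;
* `volume_stdTri`, `volume_stdSq`, `convexHull_triple_eq_image`, `parallelogram_eq_image`.
-/

open MeasureTheory

namespace Crest.Agent.S0324.Helper62

abbrev E2 := EuclideanSpace ℝ (Fin 2)
abbrev E3 := EuclideanSpace ℝ (Fin 3)

/-- the standard closed triangle in the plane -/
def stdTri : Set E2 := {x | 0 ≤ x 0 ∧ 0 ≤ x 1 ∧ x 0 + x 1 ≤ 1}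

/-- the unit square in the plane -/
def stdSq : Set E2 := {x | (0 ≤ x 0 ∧ x 0 ≤ 1) ∧ (0 ≤ x 1 ∧ x 1 ≤ 1)}

theorem volume_stdSq : volume stdSq = 1 := by
  have h := OrthonormalBasis.volume_parallelepiped (EuclideanSpace.basisFun (Fin 2) ℝ)
  have h2 : parallelepiped (EuclideanSpace.basisFun (Fin 2) ℝ) = stdSq := by
    have := parallelepiped_basis_eq (EuclideanSpace.basisFun (Fin 2) ℝ).toBasis
    simp only [OrthonormalBasis.coe_toBasis] at this
    rw [this]
    ext x
    simp [stdSq, Fin.forall_fin_two]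
  rw [h2] at h
  exact h

/-- the functional `x ↦ x 0 + x 1` -/
noncomputable def sumFun : E2 →L[ℝ] ℝ := EuclideanSpace.proj 0 + EuclideanSpace.proj 1

theorem sumFun_apply (x : E2) : sumFun x = x 0 + x 1 := by
  simp [sumFun]

theorem volume_diag : volume {x : E2 | x 0 + x 1 = 1} = 0 := by
  have hker : (LinearMap.ker (sumFun : E2 →ₗ[ℝ] ℝ)) ≠ ⊤ := by
    intro h
    have h1 : (EuclideanSpace.single 0 1 : E2) ∈ LinearMap.ker (sumFun : E2 →ₗ[ℝ] ℝ) := by
      rw [h]; trivial
    rw [LinearMap.mem_ker] at h1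
    have : sumFun (EuclideanSpace.single 0 1 : E2) = 1 := by
      rw [sumFun_apply]; simp
    rw [ContinuousLinearMap.coe_coe] at h1
    rw [h1] at this
    exact zero_ne_one this
  have h0 := Measure.addHaar_submodule (volume : Measure E2) _ hker
  have h2 : {x : E2 | x 0 + x 1 = 1} =
      (fun x => x - (EuclideanSpace.single 0 1 : E2)) ⁻¹' (LinearMap.ker (sumFun : E2 →ₗ[ℝ] ℝ) : Set E2) := by
    ext x
    simp only [Set.mem_ofPred_eq, Set.mem_preimage, SetLike.mem_coe, LinearMap.mem_ker,
      ContinuousLinearMap.coe_coe, map_sub, sumFun_apply]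
    simp
    constructor <;> intro h <;> linarith
  rw [h2]
  simp only [sub_eq_add_neg]
  rw [measure_preimage_add_right]
  exact h0

theorem volume_stdTri : volume stdTri = 1 / 2 := by
  set c : E2 := !₂[1, 1] with hc
  set T' : Set E2 := (fun x => c - x) ⁻¹' stdTri with hT'
  have hclosed : IsClosed stdTri := by
    have h0 : Continuous fun x : E2 => x 0 := by fun_prop
    have h1 : Continuous fun x : E2 => x 1 := by fun_prop
    exact (isClosed_le continuous_const h0).inter
      ((isClosed_le continuous_const h1).inter (isClosed_le (h0.add h1) continuous_const))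
  have hmeas : MeasurableSet stdTri := hclosed.measurableSet
  have hmeas' : MeasurableSet T' := by
    apply hmeas.preimage
    fun_prop
  have hvol' : volume T' = volume stdTri := by
    rw [hT']
    exact (Measure.measurePreserving_sub_left volume c).measure_preimage hmeas.nullMeasurableSet
  have hunion : stdTri ∪ T' = stdSq := by
    ext x
    simp only [Set.mem_union, stdTri, stdSq, hT', Set.mem_preimage, Set.mem_ofPred_eq, hc,
      PiLp.sub_apply]
    simp
    constructor
    · rintro (⟨h0, h1, h2⟩ | ⟨h0, h1, h2⟩)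
      · refine ⟨⟨h0, by linarith⟩, h1, by linarith⟩
      · refine ⟨⟨by linarith, h0⟩, by linarith, h1⟩
    · rintro ⟨⟨h0, h1⟩, h2, h3⟩
      by_cases h : x 0 + x 1 ≤ 1
      · left; exact ⟨h0, h2, h⟩
      · right; exact ⟨h1, h3, by linarith⟩
  have hinter : stdTri ∩ T' ⊆ {x : E2 | x 0 + x 1 = 1} := by
    intro x hx
    simp only [Set.mem_inter_iff, stdTri, hT', Set.mem_preimage, Set.mem_ofPred_eq, hc,
      PiLp.sub_apply] at hx
    simp at hx
    simp only [Set.mem_ofPred_eq]
    linarith [hx.1.2.2, hx.2.2.2]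
  have hnull : volume (stdTri ∩ T') = 0 := measure_mono_null hinter volume_diag
  have h := measure_union_add_inter stdTri hmeas' (μ := (volume : Measure E2))
  rw [hunion, volume_stdSq, hnull, hvol', add_zero] at h
  rw [ENNReal.eq_div_iff (by norm_num) (by norm_num)]
  rw [two_mul]
  exact h.symm


/-- the linear map `x ↦ x 0 • u + x 1 • w` -/
noncomputable def lin2 {F : Type*} [AddCommGroup F] [Module ℝ F] (u w : F) : E2 →ₗ[ℝ] F where
  toFun x := x 0 • u + x 1 • w
  map_add' x y := by
    simp only [PiLp.add_apply, add_smul]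
    abel
  map_smul' c x := by
    simp only [PiLp.smul_apply, smul_eq_mul, RingHom.id_apply, smul_add, smul_smul]

theorem lin2_apply {F : Type*} [AddCommGroup F] [Module ℝ F] (u w : F) (x : E2) :
    lin2 u w x = x 0 • u + x 1 • w := rfl

theorem det_lin2 (u w : E2) : LinearMap.det (lin2 u w) = u 0 * w 1 - u 1 * w 0 := by
  rw [← LinearMap.det_toMatrix (EuclideanSpace.basisFun (Fin 2) ℝ).toBasis]
  rw [Matrix.det_fin_two]
  simp [LinearMap.toMatrix_apply, lin2_apply]
  ring

theorem exists_isometry_plane (a b : E3) :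
    ∃ (g : E2 →ₗᵢ[ℝ] E3) (u w : E2), g u = a ∧ g w = b := by
  classical
  set W : Submodule ℝ E3 := Submodule.span ℝ {a, b} with hW
  have hWle : Module.finrank ℝ W ≤ 2 := by
    have h : Module.finrank ℝ (Submodule.span ℝ (({a, b} : Finset E3) : Set E3)) ≤
        ({a, b} : Finset E3).card := finrank_span_finset_le_card (R := ℝ) ({a, b} : Finset E3)
    have h2 : ({a, b} : Finset E3).card ≤ 2 := Finset.card_le_two
    have h3 : Submodule.span ℝ (({a, b} : Finset E3) : Set E3) = W := by
      rw [hW]; congr 1; simp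
    rw [h3] at h
    exact h.trans h2
  have hsum := Submodule.finrank_add_finrank_orthogonal W
  have h3 : Module.finrank ℝ E3 = 3 := by simp
  have hpos : 0 < Module.finrank ℝ Wᗮ := by omega
  obtain ⟨n, hn⟩ := Module.finrank_pos_iff_exists_ne_zero.mp hpos
  have hn0 : (n : E3) ≠ 0 := by
    intro h; exact hn (Subtype.ext h)
  have han : inner ℝ a (n : E3) = 0 :=
    Submodule.inner_right_of_mem_orthogonal (Submodule.subset_span (by simp)) n.2
  have hbn : inner ℝ b (n : E3) = 0 :=
    Submodule.inner_right_of_mem_orthogonal (Submodule.subset_span (by simp)) n.2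
  set P : Submodule ℝ E3 := (ℝ ∙ (n : E3))ᗮ with hP
  have : Fact (Module.finrank ℝ E3 = 2 + 1) := ⟨h3⟩
  have hfP : Module.finrank ℝ P = 2 := Submodule.finrank_orthogonal_span_singleton hn0
  have haP : a ∈ P := Submodule.mem_orthogonal_singleton_iff_inner_left.mpr han
  have hbP : b ∈ P := Submodule.mem_orthogonal_singleton_iff_inner_left.mpr hbn
  let bP : OrthonormalBasis (Fin 2) ℝ P := (stdOrthonormalBasis ℝ P).reindex (finCongr hfP)
  refine ⟨P.subtypeₗᵢ.comp bP.repr.symm.toLinearIsometry, bP.repr ⟨a, haP⟩, bP.repr ⟨b, hbP⟩, ?_, ?_⟩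
  · simp
  · simp


/-- Gram determinant of two vectors -/
noncomputable def gram {F : Type*} [NormedAddCommGroup F] [InnerProductSpace ℝ F] (a b : F) : ℝ :=
  ‖a‖ ^ 2 * ‖b‖ ^ 2 - inner ℝ a b ^ 2

theorem gram_nonneg {F : Type*} [NormedAddCommGroup F] [InnerProductSpace ℝ F] (a b : F) :
    0 ≤ gram a b := by
  unfold gram
  have h := abs_real_inner_le_norm a b
  have h2 : inner ℝ a b ^ 2 ≤ (‖a‖ * ‖b‖) ^ 2 := by
    rw [← sq_abs (inner ℝ a b)]
    exact pow_le_pow_left₀ (abs_nonneg _) h 2
  nlinarith [h2]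

theorem gram_E2 (u w : E2) : gram u w = (u 0 * w 1 - u 1 * w 0) ^ 2 := by
  unfold gram
  rw [EuclideanSpace.norm_sq_eq, EuclideanSpace.norm_sq_eq]
  simp [Fin.sum_univ_two, inner]
  ring

theorem volume_lin2_image (u w : E2) (S : Set E2) :
    volume (lin2 u w '' S) = ENNReal.ofReal (Real.sqrt (gram u w)) * volume S := by
  rw [Measure.addHaar_image_linearMap, det_lin2, gram_E2, Real.sqrt_sq_eq_abs]

/-- **Area of a parametrised planar set in 3-space**: the image of a set `S` of parameters under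
`x ↦ c + x 0 • a + x 1 • b` has `μHE[2]`-measure `√(gram a b) * volume S`. -/
theorem area_param_image (c a b : E3) (S : Set E2) :
    (μHE[2] : Measure E3) ((fun x : E2 => c + (x 0 • a + x 1 • b)) '' S) =
      ENNReal.ofReal (Real.sqrt (gram a b)) * volume S := by
  obtain ⟨g, u, w, hu, hw⟩ := exists_isometry_plane a b
  have hfun : (fun x : E2 => c + (x 0 • a + x 1 • b)) = ((fun y : E3 => c + y) ∘ g) ∘ (lin2 u w) := by
    funext x
    simp [lin2_apply, hu, hw]
  have hiso : Isometry ((fun y : E3 => c + y) ∘ g) :=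
    (isometry_add_left c).comp g.isometry
  rw [hfun, Set.image_comp, hiso.euclideanHausdorffMeasure_image,
    EuclideanSpace.euclideanHausdorffMeasure_eq_volume, volume_lin2_image]
  congr 3
  unfold gram
  rw [← hu, ← hw, g.norm_map, g.norm_map, g.inner_map_map]

theorem convex_stdTri : Convex ℝ stdTri := by
  intro x hx y hy a b ha hb hab
  simp only [stdTri, Set.mem_ofPred_eq, PiLp.add_apply, PiLp.smul_apply, smul_eq_mul] at hx hy ⊢
  refine ⟨add_nonneg (mul_nonneg ha hx.1) (mul_nonneg hb hy.1),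
    add_nonneg (mul_nonneg ha hx.2.1) (mul_nonneg hb hy.2.1), ?_⟩
  nlinarith [hx.2.2, hy.2.2]

theorem convexHull_triple_eq_image (p q r : E3) :
    convexHull ℝ {p, q, r} = (fun x : E2 => p + (x 0 • (q - p) + x 1 • (r - p))) '' stdTri := by
  apply Set.Subset.antisymm
  · apply convexHull_min
    · intro y hy
      simp only [Set.mem_insert_iff, Set.mem_singleton_iff] at hy
      rcases hy with rfl | rfl | rfl
      · exact ⟨0, by simp [stdTri], by simp⟩
      · exact ⟨EuclideanSpace.single 0 1, by simp [stdTri], by simp⟩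
      · exact ⟨EuclideanSpace.single 1 1, by simp [stdTri], by simp⟩
    · have h1 : (fun x : E2 => p + (x 0 • (q - p) + x 1 • (r - p))) =
          (fun y : E3 => p + y) ∘ (lin2 (q - p) (r - p)) := by
        funext x; simp [lin2_apply]
      rw [h1, Set.image_comp]
      have h2 := (convex_stdTri.linear_image (lin2 (q - p) (r - p))).translate p
      convert h2 using 1
  · rintro _ ⟨x, hx, rfl⟩
    simp only [stdTri, Set.mem_ofPred_eq] at hx
    have hconv := convex_convexHull ℝ ({p, q, r} : Set E3)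
    have hp : p ∈ convexHull ℝ ({p, q, r} : Set E3) := subset_convexHull ℝ _ (by simp)
    have hq : q ∈ convexHull ℝ ({p, q, r} : Set E3) := subset_convexHull ℝ _ (by simp)
    have hr : r ∈ convexHull ℝ ({p, q, r} : Set E3) := subset_convexHull ℝ _ (by simp)
    have key := hconv.sum_mem (t := Finset.univ) (w := ![1 - x 0 - x 1, x 0, x 1]) (z := ![p, q, r])
      (by
        intro i _
        fin_cases i
        · simp; linarith [hx.2.2]
        · simp; exact hx.1
        · simp; exact hx.2.1)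
      (by simp [Fin.sum_univ_three]; ring)
      (by
        intro i _
        fin_cases i
        · simpa using hp
        · simpa using hq
        · simpa using hr)
    have heq : ∑ i : Fin 3, (![1 - x 0 - x 1, x 0, x 1] i) • (![p, q, r] i) =
        p + (x 0 • (q - p) + x 1 • (r - p)) := by
      simp [Fin.sum_univ_three, sub_smul, smul_sub]
      abel
    rw [heq] at key
    exact key

/-- **Area of a triangle in 3-space.** -/
theorem triangle_area (p q r : E3) :
    (μHE[2] : Measure E3) (convexHull ℝ {p, q, r}) =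
      ENNReal.ofReal (Real.sqrt (gram (q - p) (r - p)) / 2) := by
  rw [convexHull_triple_eq_image, area_param_image, volume_stdTri]
  have h2 : (1 / 2 : ENNReal) = ENNReal.ofReal (1 / 2) := by
    rw [ENNReal.ofReal_div_of_pos (by norm_num)]; simp
  rw [h2, ← ENNReal.ofReal_mul (Real.sqrt_nonneg _)]
  congr 1
  ring

theorem triangle_area_toReal (p q r : E3) :
    ((μHE[2] : Measure E3) (convexHull ℝ {p, q, r})).toReal =
      Real.sqrt (gram (q - p) (r - p)) / 2 := by
  rw [triangle_area, ENNReal.toReal_ofReal (by positivity)]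

theorem parallelogram_eq_image (c a b : E3) :
    {x : E3 | ∃ s ∈ Set.Icc (0 : ℝ) 1, ∃ t ∈ Set.Icc (0 : ℝ) 1, x = c + s • a + t • b} =
      (fun x : E2 => c + (x 0 • a + x 1 • b)) '' stdSq := by
  ext y
  constructor
  · rintro ⟨s, hs, t, ht, rfl⟩
    refine ⟨!₂[s, t], ?_, ?_⟩
    · simp only [stdSq, Set.mem_ofPred_eq]
      simpa using ⟨hs, ht⟩
    · simp [add_assoc]
  · rintro ⟨x, hx, rfl⟩
    simp only [stdSq, Set.mem_ofPred_eq] at hx
    exact ⟨x 0, hx.1, x 1, hx.2, by simp [add_assoc]⟩

/-- **Area of a parallelogram in 3-space.** -/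
theorem parallelogram_area (c a b : E3) :
    (μHE[2] : Measure E3)
        {x : E3 | ∃ s ∈ Set.Icc (0 : ℝ) 1, ∃ t ∈ Set.Icc (0 : ℝ) 1, x = c + s • a + t • b} =
      ENNReal.ofReal (Real.sqrt (gram a b)) := by
  rw [parallelogram_eq_image, area_param_image, volume_stdSq, mul_one]

theorem parallelogram_area_toReal (c a b : E3) :
    ((μHE[2] : Measure E3)
        {x : E3 | ∃ s ∈ Set.Icc (0 : ℝ) 1, ∃ t ∈ Set.Icc (0 : ℝ) 1, x = c + s • a + t • b}).toReal =
      Real.sqrt (gram a b) := by
  rw [parallelogram_area, ENNReal.toReal_ofReal (Real.sqrt_nonneg _)]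

/-- comparison of the unnormalised `μH[2]` with `μHE[2]` -/
theorem exists_hausdorff_scale :
    ∃ κ : ℝ, 0 < κ ∧ ∀ s : Set E3,
      ((μH[(2 : ℝ)] : Measure E3) s).toReal = κ * ((μHE[2] : Measure E3) s).toReal := by
  set c := Measure.addHaarScalarFactor (volume : Measure (EuclideanSpace ℝ (Fin 2))) μH[(2 : ℕ)] with hc
  have hc0 : c ≠ 0 := Measure.addHaarScalarFactor_volume_hausdorffMeasure_ne_zero 2
  refine ⟨(c : ℝ)⁻¹, by positivity, fun s => ?_⟩
  have h : (μHE[2] : Measure E3) s = (c : ENNReal) * (μH[((2 : ℕ) : ℝ)] : Measure E3) s := by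
    rw [Measure.euclideanHausdorffMeasure_def]
    rfl
  rw [h, ENNReal.toReal_mul]
  have h2 : ((2 : ℕ) : ℝ) = 2 := by norm_num
  rw [h2]
  simp only [ENNReal.coe_toReal]
  field_simp

end Crest.Agent.S0324.Helper62
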