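import Mathlib

/-!
# Row 211 / P3 backup (helper8): pure-real lemmas for the explicit cover

Far-side inequality for the discrete radial sweep (c = 1/1000, N = 5·10⁶).
-/

set_option autoImplicit false

namespace Crest.Agent.S0324.Helper8

theorem h8_abs_mul_le {a b A B : ℝ} (ha : |a| ≤ A) (hb : |b| ≤ B) : |a * b| ≤ A * B := by
  rw [abs_mul]
  exact mul_le_mul ha hb (abs_nonneg b) (le_trans (abs_nonneg a) ha)

theorem h8_sq_le_one {a : ℝ} (ha : |a| ≤ 1) : a ^ 2 ≤ 1 := by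
  have := (sq_le_one_iff_abs_le_one a).mpr ha
  simpa using this

theorem h8_quarter (t : ℝ) : (1 - t) * t ≤ 1 / 4 := by nlinarith [sq_nonneg (t - 1 / 2)]

theorem h8_h6 (x y : ℝ) (hy : y ^ 2 ≤ 1) : (y ^ 2 - x ^ 2) * (y ^ 2 + 1 / 4) ≤ 5 / 4 := by
  nlinarith [sq_nonneg x, sq_nonneg y, mul_nonneg (sq_nonneg x) (sq_nonneg y)]

/-- Far-side inequality, stated with the midpoint slope `m` (`τ = m - 1/N`). -/
theorem far_side_mid (x y t m : ℝ)
    (hx : |x| ≤ 1 - t) (hy : |y| ≤ t) (hm1 : -1 ≤ m - 1 / 5000000) (hm2 : m + 1 / 5000000 ≤ 1)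
    (h3 : (m - 1 / 5000000) * t + x * (1 / 1000) * (1 - (m - 1 / 5000000) ^ 2) / 4 ≤ y)
    (h4 : y ≤ (m + 1 / 5000000) * t + x * (1 / 1000) * (1 - (m + 1 / 5000000) ^ 2) / 4)
    (h5 : t ≤ 1 / 2 + (1 / 1000) * x * y + (1 / 1000) ^ 2 * (y ^ 2 - x ^ 2) * (y ^ 2 + 1 / 4)) :
    t - x * (1 / 1000) * m / 2 ≤
      1 / 2 + (1 / 1000) ^ 2 * (m ^ 4 + m ^ 2) / 16 + (1 / 1000) ^ 3 + (1 / 1000) / 5000000 := by
  by_contra hcon
  rw [not_le] at hcon
  obtain ⟨hx1, hx2⟩ := abs_le.mp hx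
  obtain ⟨hy1, hy2⟩ := abs_le.mp hy
  have ht0 : 0 ≤ t := by linarith
  have ht1 : t ≤ 1 := by linarith
  have hxabs1 : |x| ≤ 1 := abs_le.mpr ⟨by linarith, by linarith⟩
  have hyabs1 : |y| ≤ 1 := abs_le.mpr ⟨by linarith, by linarith⟩
  have hmabs : |m| ≤ 1 := abs_le.mpr ⟨by linarith, by linarith⟩
  have hmsq : m ^ 2 ≤ 1 := h8_sq_le_one hmabs
  have hmsq0 : 0 ≤ m ^ 2 := sq_nonneg m
  have hm4 : m ^ 4 ≤ 1 := by
    have h : m ^ 4 = (m ^ 2) ^ 2 := by ring
    rw [h]; exact pow_le_one₀ hmsq0 hmsq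
  have hm40 : 0 ≤ m ^ 4 := by positivity
  have hxm := abs_le.mp (h8_abs_mul_le hxabs1 hmabs)
  -- G > 0
  have hG : 0 < t - 1 / 2 - x * (1 / 1000) * m / 2 := by linarith
  -- s ≥ -c/2
  have hs1 : -(1 / 2000 : ℝ) ≤ t - 1 / 2 := by linarith [hxm.1]
  -- |x| ≤ 0.5005
  have hxabs : |x| ≤ 1001 / 2000 := abs_le.mpr ⟨by linarith, by linarith⟩
  -- s ≤ 0.252 c
  have hxy : x * y ≤ 1 / 4 := by
    have h1 : x * y ≤ |x| * |y| := by rw [← abs_mul]; exact le_abs_self _
    have h2 : |x| * |y| ≤ (1 - t) * t := mul_le_mul hx hy (abs_nonneg y) (by linarith)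
    linarith [h8_quarter t]
  have hysq : y ^ 2 ≤ 1 := h8_sq_le_one hyabs1
  have h6 := h8_h6 x y hysq
  have hs2 : t - 1 / 2 ≤ 252 / 1000000 := by linarith
  have hsabs : |t - 1 / 2| ≤ 1 / 2000 := abs_le.mpr ⟨hs1, by linarith⟩
  have hyabs : |y| ≤ 500252 / 1000000 := abs_le.mpr ⟨by linarith, by linarith⟩
  -- e bounds
  have he1 : -(2002 / 10000000000 : ℝ) ≤ y - m * t - x * (1 / 1000) * (1 - m ^ 2) / 4 := by
    linarith [hxm.1, hxm.2]
  have he2 : y - m * t - x * (1 / 1000) * (1 - m ^ 2) / 4 ≤ 2002 / 10000000000 := by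
    linarith [hxm.1, hxm.2]
  have heabs : |y - m * t - x * (1 / 1000) * (1 - m ^ 2) / 4| ≤ 2002 / 10000000000 :=
    abs_le.mpr ⟨he1, he2⟩
  -- η = y - m/2
  have h1m : |1 - m ^ 2| ≤ 1 := abs_le.mpr ⟨by linarith, by linarith⟩
  have hms := abs_le.mp (h8_abs_mul_le hmabs hsabs)
  have hx1m := abs_le.mp (h8_abs_mul_le hxabs h1m)
  have hηabs : |y - m / 2| ≤ 6256 / 10000000 :=
    abs_le.mpr ⟨by linarith [hms.1, hx1m.1], by linarith [hms.2, hx1m.2]⟩
  -- ε1 = y^2 - m^2/4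
  have hε : y ^ 2 - m ^ 2 / 4 = (y - m / 2) * (y + m / 2) := by ring
  have hyp : |y + m / 2| ≤ 1000252 / 1000000 := by
    obtain ⟨a1, a2⟩ := abs_le.mp hyabs
    obtain ⟨b1, b2⟩ := abs_le.mp hmabs
    exact abs_le.mpr ⟨by linarith, by linarith⟩
  have hεabs : |y ^ 2 - m ^ 2 / 4| ≤ 6259 / 10000000 := by
    rw [hε]
    exact le_trans (h8_abs_mul_le hηabs hyp) (by norm_num)
  -- K = m^2/2 + 1/4 - x^2
  have hxsq : x ^ 2 ≤ 1 := h8_sq_le_one hxabs1
  have hK : |m ^ 2 / 2 + 1 / 4 - x ^ 2| ≤ 3 / 4 :=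
    abs_le.mpr ⟨by linarith [sq_nonneg x], by linarith [sq_nonneg x]⟩
  -- product bounds
  have hxmabs : |x * m| ≤ 1001 / 2000 := by
    have := h8_abs_mul_le hxabs hmabs; linarith
  have hPG : x * m * (t - 1 / 2 - x * (1 / 1000) * m / 2) ≤
      (1001 / 2000) * (t - 1 / 2 - x * (1 / 1000) * m / 2) :=
    mul_le_mul_of_nonneg_right (abs_le.mp hxmabs).2 hG.le
  have hxe := abs_le.mp (h8_abs_mul_le hxabs heabs)
  have hεK := abs_le.mp (h8_abs_mul_le hεabs hK)
  have hεsq : (y ^ 2 - m ^ 2 / 4) ^ 2 ≤ (6259 / 10000000 : ℝ) ^ 2 := by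
    rw [← sq_abs]; exact pow_le_pow_left₀ (abs_nonneg _) hεabs 2
  linarith [hPG, hxe.2, hεK.2, hεsq, hm4, hmsq]


/-! ### The sweep parameters -/

/-- Slopes of the sweep rays: `τ_j = -1 + 2 j / N`, `N = 5·10⁶`. -/
noncomputable def tau (j : ℕ) : ℝ := -1 + 2 * (j : ℝ) / 5000000

/-- Midpoint slope of sector `i`. -/
noncomputable def mid (i : ℕ) : ℝ := tau i + 1 / 5000000

/-- Excess of the far side of cylinder `i` over `1/2`. -/
noncomputable def rr (i : ℕ) : ℝ :=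
  (1 / 1000) ^ 2 * (mid i ^ 4 + mid i ^ 2) / 16 + (1 / 1000) ^ 3 + (1 / 1000) / 5000000

/-- Far side (in the `t` coordinate) of cylinder `i`. -/
noncomputable def hh (i : ℕ) : ℝ := 1 / 2 + rr i

/-- `y`-slope of the axis of cylinder `i`. -/
noncomputable def ay (i : ℕ) : ℝ := (1 / 1000) * (1 + tau i * tau (i + 1)) / 4

/-- `t`-slope of the axis of cylinder `i` (the `z`-slope is `√2` times this). -/
noncomputable def at' (i : ℕ) : ℝ := (1 / 1000) * mid i / 2

theorem tau_zero : tau 0 = -1 := by simp [tau]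

theorem tau_N : tau 5000000 = 1 := by norm_num [tau]

theorem tau_succ (i : ℕ) : tau (i + 1) = tau i + 2 / 5000000 := by
  simp only [tau]; push_cast; ring

theorem tau_ge (i : ℕ) : -1 ≤ tau i := by
  have : (0 : ℝ) ≤ (i : ℝ) := Nat.cast_nonneg i
  simp only [tau]; linarith

theorem tau_le {i : ℕ} (hi : i ≤ 5000000) : tau i ≤ 1 := by
  have : (i : ℝ) ≤ 5000000 := by exact_mod_cast hi
  simp only [tau]; linarith

theorem rr_pos (i : ℕ) : 0 < rr i := by
  unfold rr; positivity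

theorem hh_pos (i : ℕ) : 0 < hh i := by
  have := rr_pos i; unfold hh; linarith

/-- Discrete intermediate value theorem. -/
theorem discrete_ivt : ∀ (n : ℕ) (f : ℕ → ℝ), 0 < n → 0 ≤ f 0 → f n ≤ 0 →
    ∃ i, i < n ∧ 0 ≤ f i ∧ f (i + 1) ≤ 0 := by
  intro n
  induction n with
  | zero => intro f h; exact absurd h (lt_irrefl 0)
  | succ k ih =>
    intro f _ h0 hn
    by_cases hk : 0 ≤ f k
    · exact ⟨k, Nat.lt_succ_self k, hk, hn⟩
    · rw [not_le] at hk
      have hkpos : 0 < k := by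
        rcases Nat.eq_zero_or_pos k with h | h
        · subst h; linarith
        · exact h
      obtain ⟨i, hi, h1, h2⟩ := ih f hkpos h0 hk.le
      exact ⟨i, Nat.lt_succ_of_lt hi, h1, h2⟩

/-- The interface function between the two families. -/
noncomputable def phi (x y : ℝ) : ℝ :=
  1 / 2 + (1 / 1000) * x * y + (1 / 1000) ^ 2 * (y ^ 2 - x ^ 2) * (y ^ 2 + 1 / 4)

/-- Mirror step: above the interface, the mirrored point `(y, -x, 1 - t)` is below it. -/
theorem phi_mirror (x y t : ℝ) (h : phi x y ≤ t) : 1 - t ≤ phi y (-x) := by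
  unfold phi at *
  nlinarith [sq_nonneg (x ^ 2 - y ^ 2)]

/-- Planar covering lemma: a point of the tetrahedron (coordinates `|x| ≤ 1 - t`, `|y| ≤ t`)
below the interface has, for some sector `i < N`, barycentric coordinates `β, γ` with respect to
the planar triangle `0, (τ_i h_i, h_i), (τ_{i+1} h_i, h_i)` after shearing along the axis. -/
theorem planar_cover (x y t : ℝ) (hx : |x| ≤ 1 - t) (hy : |y| ≤ t) (h5 : t ≤ phi x y) :
    ∃ i, i < 5000000 ∧ ∃ β γ : ℝ, 0 ≤ β ∧ 0 ≤ γ ∧ β + γ ≤ 1 ∧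
      β * (tau i * hh i) + γ * (tau (i + 1) * hh i) = y - x * ay i ∧
      (β + γ) * hh i = t - x * at' i := by
  obtain ⟨hy1, hy2⟩ := abs_le.mp hy
  obtain ⟨i, hi, hf1, hf2⟩ := discrete_ivt 5000000
    (fun j => y - tau j * t - x * (1 / 1000) * (1 - tau j ^ 2) / 4) (by norm_num)
    (by simp only [tau_zero]; linarith) (by simp only [tau_N]; linarith)
  refine ⟨i, hi, ?_⟩
  have hτ1 := tau_ge i
  have hτ2 : tau (i + 1) ≤ 1 := tau_le (Nat.succ_le_of_lt hi)
  have hsucc := tau_succ i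
  have hfar : t - x * at' i ≤ hh i := by
    have := far_side_mid x y t (mid i) hx hy
      (by unfold mid; linarith) (by unfold mid; linarith)
      (by unfold mid; ring_nf; ring_nf at hf1; linarith)
      (by unfold mid; rw [hsucc] at hf2; ring_nf; ring_nf at hf2; linarith)
      (by unfold phi at h5; exact h5)
    unfold hh rr at'
    linarith
  have hh0 := hh_pos i
  have hδ : tau (i + 1) - tau i = 2 / 5000000 := by rw [hsucc]; ring
  -- sheared coordinates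
  have hβ : 0 ≤ tau (i + 1) * (t - x * at' i) - (y - x * ay i) := by
    have : tau (i + 1) * (t - x * at' i) - (y - x * ay i) =
        -(y - tau (i + 1) * t - x * (1 / 1000) * (1 - tau (i + 1) ^ 2) / 4) := by
      unfold at' ay mid; rw [hsucc]; ring
    rw [this]; linarith
  have hγ : 0 ≤ (y - x * ay i) - tau i * (t - x * at' i) := by
    have : (y - x * ay i) - tau i * (t - x * at' i) =
        y - tau i * t - x * (1 / 1000) * (1 - tau i ^ 2) / 4 := by
      unfold at' ay mid; rw [hsucc]; ring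
    rw [this]; exact hf1
  have hd : (0 : ℝ) < hh i * (2 / 5000000) := by positivity
  refine ⟨(tau (i + 1) * (t - x * at' i) - (y - x * ay i)) / (hh i * (2 / 5000000)),
    ((y - x * ay i) - tau i * (t - x * at' i)) / (hh i * (2 / 5000000)),
    div_nonneg hβ hd.le, div_nonneg hγ hd.le, ?_, ?_, ?_⟩
  · rw [← add_div, div_le_one hd]
    have : tau (i + 1) * (t - x * at' i) - (y - x * ay i) +
        ((y - x * ay i) - tau i * (t - x * at' i)) = (2 / 5000000) * (t - x * at' i) := by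
      rw [hsucc]; ring
    rw [this]; nlinarith
  · rw [hsucc]; field_simp; ring
  · rw [hsucc]; field_simp; ring


/-- Below the interface: some sector `i < N` contains the point (raw inequalities). -/
theorem below_cover (x y t : ℝ) (hx : |x| ≤ 1 - t) (hy : |y| ≤ t) (h5 : t ≤ phi x y) :
    ∃ i, i < 5000000 ∧
      0 ≤ y - tau i * t - x * (1 / 1000) * (1 - tau i ^ 2) / 4 ∧
      y - (tau i + 2 / 5000000) * t - x * (1 / 1000) * (1 - (tau i + 2 / 5000000) ^ 2) / 4 ≤ 0 ∧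
      t - x * (1 / 1000) * (tau i + 1 / 5000000) / 2 ≤
        1 / 2 + (1 / 1000) ^ 2 * ((tau i + 1 / 5000000) ^ 4 + (tau i + 1 / 5000000) ^ 2) / 16 +
          (1 / 1000) ^ 3 + (1 / 1000) / 5000000 := by
  obtain ⟨hy1, hy2⟩ := abs_le.mp hy
  obtain ⟨i, hi, hf1, hf2⟩ := discrete_ivt 5000000
    (fun j => y - tau j * t - x * (1 / 1000) * (1 - tau j ^ 2) / 4) (by norm_num)
    (by simp only [tau_zero]; linarith) (by simp only [tau_N]; linarith)
  have hτ1 := tau_ge i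
  have hτ2 : tau (i + 1) ≤ 1 := tau_le (Nat.succ_le_of_lt hi)
  have hsucc := tau_succ i
  rw [hsucc] at hf2 hτ2
  refine ⟨i, hi, hf1, hf2, ?_⟩
  exact far_side_mid x y t (tau i + 1 / 5000000) hx hy
      (by linarith) (by linarith)
      (by ring_nf; ring_nf at hf1; linarith)
      (by ring_nf; ring_nf at hf2; linarith)
      (by unfold phi at h5; exact h5)

end Crest.Agent.S0324.Helper8
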