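import Mathlib
import Crest.Agent.Lib.S0324.Helper8CoverReal
import Crest.Agent.Lib.S0324.Helper65Glue

/-!
# Row 211 / P3 (helper8): the pure real covering statement and `core_cover`

`pure_cover` is exactly the hypothesis of `Helper65.core_cover_of_pure`; `core_cover` follows.
-/

set_option autoImplicit false

namespace Crest.Agent.S0324.Helper8

theorem tau_eq (j : ℕ) : Helper65.tau j = tau j := rfl

/-- Below the interface the point lies in some piece of the first family. -/
theorem inPiece_of_below (x y t : ℝ) (hx : |x| ≤ 1 - t) (hy : |y| ≤ t) (h5 : t ≤ phi x y) :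
    ∃ i, i < 5000000 ∧ Helper65.InPiece i x y t := by
  obtain ⟨i, hi, h1, h2, h3⟩ := below_cover x y t hx hy h5
  refine ⟨i, hi, ?_⟩
  have hsucc := tau_succ i
  unfold Helper65.InPiece Helper65.rad Helper65.mid Helper65.cc
  simp only [tau_eq]
  rw [hsucc]
  refine ⟨?_, ?_, ?_⟩
  · linarith
  · linarith
  · have e : (tau i + (tau i + 2 / 5000000)) / 2 = tau i + 1 / 5000000 := by ring
    rw [e]
    linarith

/-- The pure real covering statement (hypothesis of `Helper65.core_cover_of_pure`). -/
theorem pure_cover (x y t : ℝ) (hx : |x| ≤ 1 - t) (hy : |y| ≤ t) :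
    (∃ i, i < 5000000 ∧ Helper65.InPiece i x y t) ∨
      (∃ i, i < 5000000 ∧ Helper65.InPiece i (-y) x (1 - t)) := by
  by_cases h : t ≤ phi x y
  · exact Or.inl (inPiece_of_below x y t hx hy h)
  · right
    rw [not_le] at h
    have hm : 1 - t ≤ phi (-y) x := by
      have := phi_mirror x y t h.le
      unfold phi at this ⊢
      linarith
    refine inPiece_of_below (-y) x (1 - t) ?_ ?_ hm
    · rw [abs_neg]; linarith
    · linarith

end Crest.Agent.S0324.Helper8

namespace Crest.Agent.S0324.Helper8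

open MeasureTheory in
/-- P3 `core_cover` (exact interface statement), from helper65's reduction and `pure_cover`. -/
theorem core_cover :
    ∃ (m : ℕ) (u p q r : Fin m → E3), m ≤ 15000000 ∧
      (∀ i, ‖u i‖ = 1) ∧
      (∀ i, inner ℝ (p i) (u i) = 0 ∧ inner ℝ (q i) (u i) = 0 ∧ inner ℝ (r i) (u i) = 0) ∧
      (∀ i, 0 < gram (q i - p i) (r i - p i)) ∧
      Kstd ⊆ ⋃ i, {x : E3 | ∃ b ∈ convexHull ℝ {p i, q i, r i}, ∃ t : ℝ, x = b + t • u i} ∧
      ∑ i, Real.sqrt (gram (q i - p i) (r i - p i)) / 2 ≤ Real.sqrt 2 * (1 / 2 - 1 / 10 ^ 9) :=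
  Helper65.core_cover_of_pure pure_cover

end Crest.Agent.S0324.Helper8
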