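import Mathlib
import Crest.Agent.Lib.S0324.Area

/-!
# Row 211 shared library: orthogonal projections of the standard regular tetrahedron

Package P2 (helper17).  For a unit vector `v`, the orthogonal projection of the tetrahedron `Kstd`
onto the plane `v^⊥` has (finite) area at least `√2`, with equality for `v = e_x`.

Method: the projected triangle over vertices `X, P, Q` has area `|det[P - X, Q - X, v]| / 2`
(`h17_area_tri`, from `muHE_triangle` and the identity `gram (π a) (π b) = det[a, b, v]^2`).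
The projection contains the four projected faces and, for each pair of opposite edges, either one
of two triangles of large area or two triangles meeting in a null segment (`h17_edge_bound`);
the seven resulting lower bounds give `√2` by elementary arithmetic (`h17_arith`).
Auxiliary names carry the prefix `h17_`.
-/

set_option autoImplicit false
open MeasureTheory
open scoped ENNReal

namespace Crest.Agent.S0324

theorem h17_inner (a b : E3) : inner ℝ a b = a 0 * b 0 + a 1 * b 1 + a 2 * b 2 := by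
  simp [PiLp.inner_apply, Fin.sum_univ_three]
  ring

theorem h17_norm_sq (a : E3) : ‖a‖ ^ 2 = a 0 ^ 2 + a 1 ^ 2 + a 2 ^ 2 := by
  rw [← real_inner_self_eq_norm_sq, h17_inner]; ring

/-- triple product -/
noncomputable def h17_det3 (a b v : E3) : ℝ :=
  a 0 * (b 1 * v 2 - b 2 * v 1) - a 1 * (b 0 * v 2 - b 2 * v 0) + a 2 * (b 0 * v 1 - b 1 * v 0)

/-- the projection along `v` -/
noncomputable def h17_proj (v : E3) : E3 →ₗ[ℝ] E3 where
  toFun y := y - inner ℝ y v • v
  map_add' x y := by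
    simp only [inner_add_left, add_smul]; abel
  map_smul' c x := by
    simp only [inner_smul_left, RingHom.id_apply, smul_sub, smul_smul]
    simp

theorem h17_proj_apply (v y : E3) : h17_proj v y = y - inner ℝ y v • v := rfl

theorem h17_inner_proj (v a b : E3) (hv : ‖v‖ = 1) :
    inner ℝ (h17_proj v a) (h17_proj v b) = inner ℝ a b - inner ℝ a v * inner ℝ b v := by
  simp only [h17_proj_apply, inner_sub_left, inner_sub_right, inner_smul_left, inner_smul_right,
    real_inner_self_eq_norm_sq, hv, real_inner_comm v b]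
  simp

theorem h17_gram_proj (v a b : E3) (hv : ‖v‖ = 1) :
    gram (h17_proj v a) (h17_proj v b) = (h17_det3 a b v) ^ 2 := by
  have hv2 : v 0 ^ 2 + v 1 ^ 2 + v 2 ^ 2 = 1 := by
    rw [← h17_norm_sq, hv]; norm_num
  unfold gram h17_det3
  rw [← real_inner_self_eq_norm_sq, ← real_inner_self_eq_norm_sq, h17_inner_proj v a a hv,
    h17_inner_proj v b b hv, h17_inner_proj v a b hv]
  simp only [h17_inner]
  linear_combination (-(a 0 ^ 2 + a 1 ^ 2 + a 2 ^ 2) * (b 0 ^ 2 + b 1 ^ 2 + b 2 ^ 2) + (a 0 * b 0 + a 1 * b 1 + a 2 * b 2) ^ 2) * hv2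

theorem h17_det3_proj (v a x : E3) : h17_det3 a (h17_proj v x) v = h17_det3 a x v := by
  unfold h17_det3
  simp only [h17_proj_apply, PiLp.sub_apply, PiLp.smul_apply, smul_eq_mul]
  ring

theorem h17_det3_comb (a x y v : E3) (s t : ℝ) :
    h17_det3 a (s • x + t • y) v = s * h17_det3 a x v + t * h17_det3 a y v := by
  unfold h17_det3
  simp only [PiLp.add_apply, PiLp.smul_apply, smul_eq_mul]
  ring

theorem h17_area_tri (v X P Q : E3) (hv : ‖v‖ = 1) :
    μHE[2] (convexHull ℝ ({h17_proj v X, h17_proj v P, h17_proj v Q} : Set E3)) =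
      ENNReal.ofReal (|h17_det3 (P - X) (Q - X) v| / 2) := by
  rw [muHE_triangle, ← map_sub, ← map_sub, h17_gram_proj _ _ _ hv, Real.sqrt_sq_eq_abs]

theorem h17_tri_sub (v : E3) {X P Q : E3} (hX : X ∈ Kstd) (hP : P ∈ Kstd) (hQ : Q ∈ Kstd) :
    convexHull ℝ ({h17_proj v X, h17_proj v P, h17_proj v Q} : Set E3) ⊆ h17_proj v '' Kstd := by
  apply convexHull_min
  · rintro _ (rfl | rfl | rfl)
    exacts [⟨X, hX, rfl⟩, ⟨P, hP, rfl⟩, ⟨Q, hQ, rfl⟩]
  · exact (convex_convexHull ℝ _).linear_image (h17_proj v)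

theorem h17_segment_null (p q : E3) : μHE[2] (segment ℝ p q) = 0 := by
  have h := muHE_triangle p q q
  have hg : gram (q - p) (q - p) = 0 := by
    unfold gram
    rw [real_inner_self_eq_norm_sq]; ring
  rw [hg] at h
  simpa [convexHull_pair] using h

theorem h17_inter_sub (v X Y P Q : E3)
    (h : h17_det3 (Q - P) (X - P) v * h17_det3 (Q - P) (Y - P) v < 0) :
    convexHull ℝ ({h17_proj v X, h17_proj v P, h17_proj v Q} : Set E3) ∩
      convexHull ℝ ({h17_proj v Y, h17_proj v P, h17_proj v Q} : Set E3) ⊆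
      segment ℝ (h17_proj v P) (h17_proj v Q) := by
  set d1 := h17_det3 (Q - P) (X - P) v with hd1
  set d2 := h17_det3 (Q - P) (Y - P) v with hd2
  set c0 := h17_det3 (Q - P) P v with hc0
  have hQ : h17_det3 (Q - P) Q v = c0 := by
    rw [hc0]; unfold h17_det3; simp only [PiLp.sub_apply]; ring
  have hX : h17_det3 (Q - P) X v = c0 + d1 := by
    rw [hc0, hd1]; unfold h17_det3; simp only [PiLp.sub_apply]; ring
  have hY : h17_det3 (Q - P) Y v = c0 + d2 := by
    rw [hc0, hd2]; unfold h17_det3; simp only [PiLp.sub_apply]; ring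
  have key : ∀ Z : E3, ∀ x ∈ convexHull ℝ ({h17_proj v Z, h17_proj v P, h17_proj v Q} : Set E3),
      ∃ c : ℝ, 0 ≤ c ∧ h17_det3 (Q - P) x v = c0 + c * (h17_det3 (Q - P) Z v - c0) ∧
        (c = 0 → x ∈ segment ℝ (h17_proj v P) (h17_proj v Q)) := by
    intro Z x hx
    rw [convexHull_insert (by simp), mem_convexJoin] at hx
    obtain ⟨_, rfl, y, hy, hxy⟩ := hx
    rw [convexHull_pair] at hy
    obtain ⟨a, b, ha, hb, hab, rfl⟩ := hy
    obtain ⟨c, d, hc, hd, hcd, rfl⟩ := hxy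
    refine ⟨c, hc, ?_, ?_⟩
    · rw [h17_det3_comb, h17_det3_comb, h17_det3_proj, h17_det3_proj, h17_det3_proj, hQ, ← hc0]
      have : d = 1 - c := by linarith
      have : b = 1 - a := by linarith
      subst_vars
      ring
    · intro hc0'
      have hd1' : d = 1 := by linarith
      subst hc0' hd1'
      simp only [zero_smul, one_smul, zero_add]
      exact ⟨a, b, ha, hb, hab, rfl⟩
  rintro x ⟨h1, h2⟩
  obtain ⟨c, hc, e1, hs1⟩ := key X x h1
  obtain ⟨c', hc', e2, _⟩ := key Y x h2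
  rw [hX] at e1
  rw [hY] at e2
  have e3 : c * d1 = c' * d2 := by linarith
  apply hs1
  have hd1ne : d1 ≠ 0 := by
    rintro h0; rw [h0] at h; simp at h
  have h4 : c * d1 ^ 2 = c' * (d1 * d2) := by
    have : c * d1 ^ 2 = (c * d1) * d1 := by ring
    rw [this, e3]; ring
  have h5 : c * d1 ^ 2 ≤ 0 := by
    rw [h4]; exact mul_nonpos_of_nonneg_of_nonpos hc' h.le
  have h6 : 0 < d1 ^ 2 := by positivity
  nlinarith

theorem h17_edge_bound (v P Q R S : E3) (hv : ‖v‖ = 1) (K : Set E3)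
    (h1 : convexHull ℝ ({h17_proj v R, h17_proj v P, h17_proj v Q} : Set E3) ⊆ K)
    (h2 : convexHull ℝ ({h17_proj v S, h17_proj v P, h17_proj v Q} : Set E3) ⊆ K) :
    ENNReal.ofReal (|h17_det3 (Q - P) (S - R) v| / 2) ≤ μHE[2] K := by
  set d1 := h17_det3 (Q - P) (R - P) v with hd1
  set d2 := h17_det3 (Q - P) (S - P) v with hd2
  have e : h17_det3 (Q - P) (S - R) v = d2 - d1 := by
    rw [hd1, hd2]; unfold h17_det3; simp only [PiLp.sub_apply]; ring
  have a1 : μHE[2] (convexHull ℝ ({h17_proj v R, h17_proj v P, h17_proj v Q} : Set E3)) =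
      ENNReal.ofReal (|d1| / 2) := by
    rw [h17_area_tri v R P Q hv]
    congr 3
    rw [hd1]; unfold h17_det3; simp only [PiLp.sub_apply]; ring
  have a2 : μHE[2] (convexHull ℝ ({h17_proj v S, h17_proj v P, h17_proj v Q} : Set E3)) =
      ENNReal.ofReal (|d2| / 2) := by
    rw [h17_area_tri v S P Q hv]
    congr 3
    rw [hd2]; unfold h17_det3; simp only [PiLp.sub_apply]; ring
  rw [e]
  by_cases h : d1 * d2 < 0
  · have hdisj : μHE[2] (convexHull ℝ ({h17_proj v R, h17_proj v P, h17_proj v Q} : Set E3) ∩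
        convexHull ℝ ({h17_proj v S, h17_proj v P, h17_proj v Q} : Set E3)) = 0 :=
      measure_mono_null (h17_inter_sub v R S P Q h) (h17_segment_null _ _)
    have hm : MeasurableSet (convexHull ℝ ({h17_proj v S, h17_proj v P, h17_proj v Q} : Set E3)) :=
      (Set.Finite.isCompact_convexHull ℝ (Set.toFinite _)).isClosed.measurableSet
    have hu := measure_union_add_inter (μ := μHE[2])
      (convexHull ℝ ({h17_proj v R, h17_proj v P, h17_proj v Q} : Set E3)) hm
    rw [hdisj, add_zero] at hu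
    have habs : |d2 - d1| / 2 = |d1| / 2 + |d2| / 2 := by
      rcases abs_cases d1 with ⟨h1', h1''⟩ | ⟨h1', h1''⟩ <;>
      rcases abs_cases d2 with ⟨h2', h2''⟩ | ⟨h2', h2''⟩ <;>
      rcases abs_cases (d2 - d1) with ⟨h3', h3''⟩ | ⟨h3', h3''⟩ <;>
      nlinarith
    calc ENNReal.ofReal (|d2 - d1| / 2) = ENNReal.ofReal (|d1| / 2) + ENNReal.ofReal (|d2| / 2) := by
          rw [habs, ENNReal.ofReal_add (by positivity) (by positivity)]
      _ = μHE[2] (convexHull ℝ ({h17_proj v R, h17_proj v P, h17_proj v Q} : Set E3) ∪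
            convexHull ℝ ({h17_proj v S, h17_proj v P, h17_proj v Q} : Set E3)) := by
          rw [hu, a1, a2]
      _ ≤ μHE[2] K := measure_mono (Set.union_subset h1 h2)
  · have h := not_lt.mp h
    rcases le_total |d1| |d2| with hle | hle
    · have habs : |d2 - d1| ≤ |d2| := by
        rw [abs_le]
        constructor <;>
        rcases abs_cases d1 with ⟨h1', h1''⟩ | ⟨h1', h1''⟩ <;>
        rcases abs_cases d2 with ⟨h2', h2''⟩ | ⟨h2', h2''⟩ <;>
        nlinarith
      calc ENNReal.ofReal (|d2 - d1| / 2) ≤ ENNReal.ofReal (|d2| / 2) :=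
            ENNReal.ofReal_le_ofReal (by linarith)
        _ = _ := a2.symm
        _ ≤ μHE[2] K := measure_mono h2
    · have habs : |d2 - d1| ≤ |d1| := by
        rw [abs_le]
        constructor <;>
        rcases abs_cases d1 with ⟨h1', h1''⟩ | ⟨h1', h1''⟩ <;>
        rcases abs_cases d2 with ⟨h2', h2''⟩ | ⟨h2', h2''⟩ <;>
        nlinarith
      calc ENNReal.ofReal (|d2 - d1| / 2) ≤ ENNReal.ofReal (|d1| / 2) :=
            ENNReal.ofReal_le_ofReal (by linarith)
        _ = _ := a1.symm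
        _ ≤ μHE[2] K := measure_mono h1

theorem h17_arith {x y z m s : ℝ} (hs0 : 0 < s) (hs2 : s ^ 2 = 2) (h : x ^ 2 + y ^ 2 + z ^ 2 = 1)
    (f1 : |s * y - z| ≤ m) (f2 : |s * y + z| ≤ m) (f3 : |s * x + z| ≤ m) (f4 : |s * x - z| ≤ m)
    (e1 : |2 * z| ≤ m) (e2 : |s * (x + y)| ≤ m) (e3 : |s * (y - x)| ≤ m) : s ≤ m := by
  by_contra hcon
  have hm : m < s := not_le.mp hcon
  have g1 := abs_lt.mp (lt_of_le_of_lt f1 hm)
  have g2 := abs_lt.mp (lt_of_le_of_lt f2 hm)
  have g3 := abs_lt.mp (lt_of_le_of_lt f3 hm)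
  have g4 := abs_lt.mp (lt_of_le_of_lt f4 hm)
  have g5 := abs_lt.mp (lt_of_le_of_lt e1 hm)
  have g6 := abs_lt.mp (lt_of_le_of_lt e2 hm)
  have g7 := abs_lt.mp (lt_of_le_of_lt e3 hm)
  have k1 : x + y < 1 := lt_of_mul_lt_mul_left (a := s) (by linarith [g6.2]) hs0.le
  have k2 : -1 < x + y := lt_of_mul_lt_mul_left (a := s) (by linarith [g6.1]) hs0.le
  have k3 : y - x < 1 := lt_of_mul_lt_mul_left (a := s) (by linarith [g7.2]) hs0.le
  have k4 : -1 < y - x := lt_of_mul_lt_mul_left (a := s) (by linarith [g7.1]) hs0.le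
  have hXY : |x| + |y| < 1 := by
    rcases abs_cases x with ⟨h1, _⟩ | ⟨h1, _⟩ <;> rcases abs_cases y with ⟨h2, _⟩ | ⟨h2, _⟩ <;>
      rw [h1, h2] <;> linarith
  have hXZ : s * |x| + |z| < s := by
    rcases abs_cases x with ⟨h1, _⟩ | ⟨h1, _⟩ <;> rcases abs_cases z with ⟨h2, _⟩ | ⟨h2, _⟩ <;>
      rw [h1, h2] <;> linarith [g3.1, g3.2, g4.1, g4.2]
  have hYZ : s * |y| + |z| < s := by
    rcases abs_cases y with ⟨h1, _⟩ | ⟨h1, _⟩ <;> rcases abs_cases z with ⟨h2, _⟩ | ⟨h2, _⟩ <;>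
      rw [h1, h2] <;> linarith [g1.1, g1.2, g2.1, g2.2]
  have hZ : 2 * |z| < s := by
    rcases abs_cases z with ⟨h2, _⟩ | ⟨h2, _⟩ <;> rw [h2] <;> linarith [g5.1, g5.2]
  have hsq : |x| ^ 2 + |y| ^ 2 + |z| ^ 2 = 1 := by simpa [sq_abs] using h
  have hX0 := abs_nonneg x
  have hY0 := abs_nonneg y
  have hZ0 := abs_nonneg z
  clear g1 g2 g3 g4 g5 g6 g7 k1 k2 k3 k4 f1 f2 f3 f4 e1 e2 e3 h
  generalize |x| = X at *
  generalize |y| = Y at *
  generalize |z| = Z at *
  have hZ2 : Z ^ 2 < 1 / 2 := by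
    have h1 : (2 * Z) ^ 2 < s ^ 2 := pow_lt_pow_left₀ hZ (by linarith) (by norm_num)
    rw [hs2] at h1
    linarith [h1, mul_pow 2 Z 2]
  have claim : ∀ X Y : ℝ, 0 ≤ X → 0 ≤ Y → Y ≤ X → X + Y < 1 → s * X + Z < s →
      X ^ 2 + Y ^ 2 + Z ^ 2 = 1 → False := by
    intro X Y hX0 hY0 hYX hXY hXZ hsq
    rcases le_or_gt X (1 / 2) with hX | hX
    · have hX2 : X ^ 2 ≤ (1 / 2) ^ 2 := pow_le_pow_left₀ hX0 hX 2
      have hY2 : Y ^ 2 ≤ (1 / 2) ^ 2 := pow_le_pow_left₀ hY0 (hYX.trans hX) 2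
      norm_num at hX2 hY2
      linarith
    · have hX1 : X < 1 := by linarith
      have hZb : Z < s * (1 - X) := by linarith
      have hZb2 : Z ^ 2 < 2 * (1 - X) ^ 2 := by
        have h3 : Z ^ 2 < (s * (1 - X)) ^ 2 := pow_lt_pow_left₀ hZb hZ0 (by norm_num)
        rw [mul_pow, hs2] at h3
        exact h3
      have hYb2 : Y ^ 2 < (1 - X) ^ 2 := pow_lt_pow_left₀ (by linarith) hY0 (by norm_num)
      have hp : 0 < (2 * X - 1) * (1 - X) := mul_pos (by linarith) (by linarith)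
      nlinarith
  rcases le_total Y X with hyx | hxy
  · exact claim X Y hX0 hY0 hyx hXY hXZ hsq
  · exact claim Y X hY0 hX0 hxy (by linarith) hYZ (by linarith)

theorem h17_det_ABC (v : E3) :
    h17_det3 ((!₂[-1, 0, 0] : E3) - !₂[1, 0, 0]) ((!₂[0, 1, Real.sqrt 2] : E3) - !₂[1, 0, 0]) v =
      2 * (Real.sqrt 2 * v 1 - v 2) := by
  unfold h17_det3; simp; ring

theorem h17_det_ABD (v : E3) :
    h17_det3 ((!₂[-1, 0, 0] : E3) - !₂[1, 0, 0]) ((!₂[0, -1, Real.sqrt 2] : E3) - !₂[1, 0, 0]) v =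
      2 * (Real.sqrt 2 * v 1 + v 2) := by
  unfold h17_det3; simp; ring

theorem h17_det_ACD (v : E3) :
    h17_det3 ((!₂[0, 1, Real.sqrt 2] : E3) - !₂[1, 0, 0])
      ((!₂[0, -1, Real.sqrt 2] : E3) - !₂[1, 0, 0]) v =
      2 * (Real.sqrt 2 * v 0 + v 2) := by
  unfold h17_det3; simp; ring

theorem h17_det_BCD (v : E3) :
    h17_det3 ((!₂[0, 1, Real.sqrt 2] : E3) - !₂[-1, 0, 0])
      ((!₂[0, -1, Real.sqrt 2] : E3) - !₂[-1, 0, 0]) v =
      2 * (Real.sqrt 2 * v 0 - v 2) := by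
  unfold h17_det3; simp; ring

theorem h17_det_AB_CD (v : E3) :
    h17_det3 ((!₂[-1, 0, 0] : E3) - !₂[1, 0, 0])
      ((!₂[0, -1, Real.sqrt 2] : E3) - !₂[0, 1, Real.sqrt 2]) v =
      2 * (2 * v 2) := by
  unfold h17_det3; simp; ring

theorem h17_det_AC_BD (v : E3) :
    h17_det3 ((!₂[0, 1, Real.sqrt 2] : E3) - !₂[1, 0, 0])
      ((!₂[0, -1, Real.sqrt 2] : E3) - !₂[-1, 0, 0]) v =
      2 * (Real.sqrt 2 * (v 0 + v 1)) := by
  unfold h17_det3; simp; ring

theorem h17_det_AD_BC (v : E3) :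
    h17_det3 ((!₂[0, -1, Real.sqrt 2] : E3) - !₂[1, 0, 0])
      ((!₂[0, 1, Real.sqrt 2] : E3) - !₂[-1, 0, 0]) v =
      2 * (Real.sqrt 2 * (v 1 - v 0)) := by
  unfold h17_det3; simp; ring

theorem h17_abs_two_mul_div (e : ℝ) : |2 * e| / 2 = |e| := by
  rw [abs_mul, abs_two]; ring

/-- P2: every orthogonal projection of `Kstd` onto a plane has area at least `√2`. -/
theorem proj_Kstd_ge (v : E3) (hv : ‖v‖ = 1) :
    ENNReal.ofReal (Real.sqrt 2) ≤ μHE[2] ((fun y : E3 => y - inner ℝ y v • v) '' Kstd) := by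
  change ENNReal.ofReal (Real.sqrt 2) ≤ μHE[2] (h17_proj v '' Kstd)
  by_cases htop : μHE[2] (h17_proj v '' Kstd) = ⊤
  · rw [htop]; exact le_top
  have hA : (!₂[1, 0, 0] : E3) ∈ Kstd := subset_convexHull ℝ _ (by simp)
  have hB : (!₂[-1, 0, 0] : E3) ∈ Kstd := subset_convexHull ℝ _ (by simp)
  have hC : (!₂[0, 1, Real.sqrt 2] : E3) ∈ Kstd := subset_convexHull ℝ _ (by simp)
  have hD : (!₂[0, -1, Real.sqrt 2] : E3) ∈ Kstd := subset_convexHull ℝ _ (by simp)
  have hv2 : v 0 ^ 2 + v 1 ^ 2 + v 2 ^ 2 = 1 := by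
    rw [← h17_norm_sq, hv]; norm_num
  have F1 := measure_mono (μ := μHE[2]) (h17_tri_sub v hA hB hC)
  rw [h17_area_tri v _ _ _ hv, h17_det_ABC, h17_abs_two_mul_div,
    ENNReal.ofReal_le_iff_le_toReal htop] at F1
  have F2 := measure_mono (μ := μHE[2]) (h17_tri_sub v hA hB hD)
  rw [h17_area_tri v _ _ _ hv, h17_det_ABD, h17_abs_two_mul_div,
    ENNReal.ofReal_le_iff_le_toReal htop] at F2
  have F3 := measure_mono (μ := μHE[2]) (h17_tri_sub v hA hC hD)
  rw [h17_area_tri v _ _ _ hv, h17_det_ACD, h17_abs_two_mul_div,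
    ENNReal.ofReal_le_iff_le_toReal htop] at F3
  have F4 := measure_mono (μ := μHE[2]) (h17_tri_sub v hB hC hD)
  rw [h17_area_tri v _ _ _ hv, h17_det_BCD, h17_abs_two_mul_div,
    ENNReal.ofReal_le_iff_le_toReal htop] at F4
  have E1 := h17_edge_bound v _ _ _ _ hv _ (h17_tri_sub v hC hA hB) (h17_tri_sub v hD hA hB)
  rw [h17_det_AB_CD, h17_abs_two_mul_div, ENNReal.ofReal_le_iff_le_toReal htop] at E1
  have E2 := h17_edge_bound v _ _ _ _ hv _ (h17_tri_sub v hB hA hC) (h17_tri_sub v hD hA hC)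
  rw [h17_det_AC_BD, h17_abs_two_mul_div, ENNReal.ofReal_le_iff_le_toReal htop] at E2
  have E3 := h17_edge_bound v _ _ _ _ hv _ (h17_tri_sub v hB hA hD) (h17_tri_sub v hC hA hD)
  rw [h17_det_AD_BC, h17_abs_two_mul_div, ENNReal.ofReal_le_iff_le_toReal htop] at E3
  have hs := h17_arith (s := Real.sqrt 2) (by positivity) (Real.sq_sqrt (by norm_num)) hv2
    F1 F2 F3 F4 E1 E2 E3
  calc ENNReal.ofReal (Real.sqrt 2) ≤ ENNReal.ofReal (μHE[2] (h17_proj v '' Kstd)).toReal :=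
        ENNReal.ofReal_le_ofReal hs
    _ = μHE[2] (h17_proj v '' Kstd) := ENNReal.ofReal_toReal htop

/-- P2: the projection along the first coordinate axis has area exactly `√2`. -/
theorem proj_Kstd_eq :
    μHE[2] ((fun y : E3 => y - inner ℝ y (!₂[1, 0, 0] : E3) • (!₂[1, 0, 0] : E3)) '' Kstd) =
      ENNReal.ofReal (Real.sqrt 2) := by
  change μHE[2] (h17_proj (!₂[1, 0, 0] : E3) '' Kstd) = _
  rw [LinearMap.image_convexHull]
  have e1 : h17_proj (!₂[1, 0, 0] : E3) !₂[1, 0, 0] = 0 := by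
    ext i; rw [h17_proj_apply, h17_inner]; fin_cases i <;> simp
  have e2 : h17_proj (!₂[1, 0, 0] : E3) !₂[-1, 0, 0] = 0 := by
    ext i; rw [h17_proj_apply, h17_inner]; fin_cases i <;> simp
  have e3 : h17_proj (!₂[1, 0, 0] : E3) !₂[0, 1, Real.sqrt 2] = !₂[0, 1, Real.sqrt 2] := by
    ext i; rw [h17_proj_apply, h17_inner]; fin_cases i <;> simp
  have e4 : h17_proj (!₂[1, 0, 0] : E3) !₂[0, -1, Real.sqrt 2] = !₂[0, -1, Real.sqrt 2] := by
    ext i; rw [h17_proj_apply, h17_inner]; fin_cases i <;> simp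
  have h1 : h17_proj (!₂[1, 0, 0] : E3) '' {!₂[1, 0, 0], !₂[-1, 0, 0], !₂[0, 1, Real.sqrt 2],
      !₂[0, -1, Real.sqrt 2]} = {0, !₂[0, 1, Real.sqrt 2], !₂[0, -1, Real.sqrt 2]} := by
    simp only [Set.image_insert_eq, Set.image_singleton, e1, e2, e3, e4]
    simp
  rw [h1, muHE_triangle]
  congr 1
  have hs : Real.sqrt 2 ^ 2 = 2 := Real.sq_sqrt (by norm_num)
  have hg : gram ((!₂[0, 1, Real.sqrt 2] : E3) - 0) ((!₂[0, -1, Real.sqrt 2] : E3) - 0) = 8 := by
    unfold gram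
    rw [h17_norm_sq, h17_norm_sq, h17_inner]
    simp
    nlinarith
  rw [hg]
  have h8 : Real.sqrt 8 = 2 * Real.sqrt 2 := by
    rw [show (8 : ℝ) = 2 ^ 2 * 2 by norm_num, Real.sqrt_mul (by norm_num),
      Real.sqrt_sq (by norm_num)]
  rw [h8]; ring

/-- P2: projections of `Kstd` have finite area. -/
theorem proj_Kstd_lt_top (v : E3) (hv : ‖v‖ = 1) :
    μHE[2] ((fun y : E3 => y - inner ℝ y v • v) '' Kstd) < ⊤ := by
  change μHE[2] (h17_proj v '' Kstd) < ⊤
  set W : Submodule ℝ E3 := (ℝ ∙ v)ᗮ with hW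
  have hv0 : v ≠ 0 := by rintro rfl; simp at hv
  have hfin : Module.finrank ℝ W = 2 := by
    have : Fact (Module.finrank ℝ E3 = 2 + 1) := ⟨by simp⟩
    exact Submodule.finrank_orthogonal_span_singleton hv0
  have hsub : ∀ x ∈ h17_proj v '' Kstd, x ∈ W := by
    rintro _ ⟨y, -, rfl⟩
    rw [hW, Submodule.mem_orthogonal_singleton_iff_inner_right, h17_proj_apply, inner_sub_right,
      inner_smul_right, real_inner_self_eq_norm_sq, hv, real_inner_comm]
    simp
  have himg : h17_proj v '' Kstd =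
      Subtype.val '' (Subtype.val ⁻¹' (h17_proj v '' Kstd) : Set W) := by
    ext x
    constructor
    · intro hx; exact ⟨⟨x, hsub x hx⟩, hx, rfl⟩
    · rintro ⟨w, hw, rfl⟩; exact hw
  have hbdd : Bornology.IsBounded (Subtype.val ⁻¹' (h17_proj v '' Kstd) : Set W) := by
    rw [← Bornology.isBounded_image_subtype_val, ← himg]
    exact ((Set.Finite.isCompact_convexHull ℝ (Set.toFinite _)).image
      (LinearMap.continuous_of_finiteDimensional _)).isBounded
  rw [himg, isometry_subtype_coe.euclideanHausdorffMeasure_image]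
  have hμ : (μHE[2] : Measure W) = μHE[Module.finrank ℝ W] := by rw [hfin]
  rw [hμ]
  exact hbdd.measure_lt_top

end Crest.Agent.S0324
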